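import Vale.Agent.P233.H450.Avoid2
import Mathlib.MeasureTheory.Measure.Prod
import Mathlib.MeasureTheory.Measure.Regular
import Mathlib.MeasureTheory.Integral.Lebesgue.Add
import Mathlib.Topology.MetricSpace.ProperSpace

/-! # P233, E3 (avoidance): measurability, and the static estimate (Fubini in the centre) -/

set_option linter.all false

open Matrix Set Filter Topology MeasureTheory
open scoped ENNReal

namespace Vale.Agent.P233.H450

section meas

variable {ι : Type*} [DecidableEq ι] {Z : Type*} [MeasurableSpace Z]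

theorem measurable_sub {A : Z → ι → ι → ℝ} (hA : ∀ i j, Measurable fun z => A z i j)
    (I : Finset ι) : Measurable fun z => (fun i j => A z i j : I → I → ℝ) :=
  measurable_pi_iff.2 fun i => measurable_pi_iff.2 fun j => hA i j

theorem measurable_det {A : Z → ι → ι → ℝ} (hA : ∀ i j, Measurable fun z => A z i j)
    (I : Finset ι) : Measurable fun z => (sub (A z) I).det := by
  have h1 : Continuous fun B : I → I → ℝ => (Matrix.of B).det := by
    have h : Continuous fun B : I → I → ℝ => (Matrix.of B : Matrix I I ℝ) :=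
      continuous_matrix fun i j => (continuous_apply j).comp (continuous_apply i)
    exact h.matrix_det
  exact h1.measurable.comp (measurable_sub hA I)

theorem measurable_alpha2 {A : Z → ι → ι → ℝ} {q : Z → ι → ℝ} {L : Z → ℝ}
    (hA : ∀ i j, Measurable fun z => A z i j) (hq : ∀ i, Measurable fun z => q z i)
    (hL : Measurable L) (I : Finset ι) : Measurable fun z => alpha2 (A z) (q z) (L z) I := by
  have h1 : ∀ i j : I, Continuous fun B : I → I → ℝ => (Matrix.of B).adjugate i j := by
    intro i j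
    have h : Continuous fun B : I → I → ℝ => (Matrix.of B : Matrix I I ℝ) :=
      continuous_matrix fun i j => (continuous_apply j).comp (continuous_apply i)
    exact (continuous_apply j).comp ((continuous_apply i).comp h.matrix_adjugate)
  have h2 : ∀ i j : I, Measurable fun z => (sub (A z) I).adjugate i j := fun i j =>
    (h1 i j).measurable.comp (measurable_sub hA I)
  have h3 : ∀ i : I, Measurable fun z => proj (A z) (q z) I i := by
    intro i
    have : (fun z => proj (A z) (q z) I i)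
        = fun z => (sub (A z) I).det⁻¹ * ∑ j : I, (sub (A z) I).adjugate i j * q z j :=
      funext fun z => by rw [proj_eq]; rfl
    rw [this]
    exact (measurable_det hA I).inv.mul (Finset.measurable_sum _ fun j _ => (h2 i j).mul (hq j))
  unfold alpha2
  simp only [dotProduct]
  exact hL.sub (Finset.measurable_sum _ fun i _ => (hq i).mul (h3 i))

theorem measurableSet_rankGE [Countable ι] {A : Z → ι → ι → ℝ}
    (hA : ∀ i j, Measurable fun z => A z i j) (k : ℕ) : MeasurableSet {z | RankGE (A z) k} := by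
  have : {z | RankGE (A z) k} = ⋃ (I : Finset ι) (_ : I.card = k), {z | 0 < (sub (A z) I).det} := by
    ext z; simp [RankGE]
  rw [this]
  exact MeasurableSet.iUnion fun I => MeasurableSet.iUnion fun _ =>
    measurableSet_lt measurable_const (measurable_det hA I)

omit [DecidableEq ι] in
theorem psd_iff_rat {B : ι → ι → ℝ} : PSD B ↔ (∀ i j, B i j = B j i) ∧
    ∀ (J : Finset ι) (c : J → ℚ), 0 ≤ ∑ i : J, ∑ j : J, (c i : ℝ) * c j * B i j := by
  classical
  constructor
  · rintro ⟨h1, h2⟩
    refine ⟨h1, fun J c => ?_⟩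
    have := h2 J (fun i => if h : i ∈ J then (c ⟨i, h⟩ : ℝ) else 0)
    rw [← Finset.sum_coe_sort J] at this
    refine this.trans_eq (Finset.sum_congr rfl fun i _ => ?_)
    rw [← Finset.sum_coe_sort J]
    exact Finset.sum_congr rfl fun j _ => by simp
  · rintro ⟨h1, h2⟩
    refine ⟨h1, fun J c => ?_⟩
    have hcl : IsClosed {c : J → ℝ | 0 ≤ ∑ i : J, ∑ j : J, c i * c j * B i j} :=
      isClosed_le continuous_const (by fun_prop)
    have hd : DenseRange fun (c : J → ℚ) (i : J) => (c i : ℝ) :=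
      DenseRange.piMap fun _ => Rat.denseRange_cast
    have hsub : range (fun (c : J → ℚ) (i : J) => (c i : ℝ))
        ⊆ {c : J → ℝ | 0 ≤ ∑ i : J, ∑ j : J, c i * c j * B i j} := by
      rintro _ ⟨c, rfl⟩; exact h2 J c
    have h3 : (fun i : J => c i) ∈ {c : J → ℝ | 0 ≤ ∑ i : J, ∑ j : J, c i * c j * B i j} :=
      hcl.closure_subset_iff.2 hsub (hd _)
    have h4 : 0 ≤ ∑ i : J, ∑ j : J, c i * c j * B i j := h3
    refine h4.trans_eq ?_
    rw [← Finset.sum_coe_sort J]
    refine Finset.sum_congr rfl fun i _ => ?_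
    rw [← Finset.sum_coe_sort J]

omit [DecidableEq ι] in
theorem measurableSet_psd [Countable ι] {B : Z → ι → ι → ℝ}
    (hB : ∀ i j, Measurable fun z => B z i j) : MeasurableSet {z | PSD (B z)} := by
  classical
  have : {z | PSD (B z)} = (⋂ (i : ι) (j : ι), {z | B z i j = B z j i}) ∩
      ⋂ (J : Finset ι) (c : J → ℚ), {z | 0 ≤ ∑ i : J, ∑ j : J, (c i : ℝ) * c j * B z i j} := by
    ext z
    simp only [mem_ofPred_eq, psd_iff_rat, mem_inter_iff, mem_iInter]
  rw [this]
  refine (MeasurableSet.iInter fun i => MeasurableSet.iInter fun j =>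
    measurableSet_eq_fun (hB i j) (hB j i)).inter (MeasurableSet.iInter fun J =>
    MeasurableSet.iInter fun c => measurableSet_le measurable_const ?_)
  exact Finset.measurable_sum _ fun i _ => Finset.measurable_sum _ fun j _ =>
    measurable_const.mul (hB i j)

end meas

section static

variable {M : Type*} [MetricSpace M] [MeasurableSpace M] [BorelSpace M] {m : Measure M}

/-- the Gram matrix at `y` -/
def gm (Gt : ℕ → ℕ → M → ℝ) (y : M) : ℕ → ℕ → ℝ := fun i j => Gt i j y

/-- the products with `∇d_p` at `y` -/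
def wv (W : ℕ → M → M → ℝ) (p y : M) : ℕ → ℝ := fun i => W i p y

/-- the bad set for the centre `p` -/
def bad (Gt : ℕ → ℕ → M → ℝ) (W : ℕ → M → M → ℝ) (I : Finset ℕ) (n : ℕ) (O : Set M) (l : ℕ)
    (p : M) : Set M :=
  {y | y ∈ O ∧ RankGE (gm Gt y) (I.card + 1) ∧ 1 / ((n : ℝ) + 1) < (sub (gm Gt y) I).det ∧
    alpha2 (gm Gt y) (wv W p y) 1 I < (1 / ((l : ℝ) + 1)) ^ 2}

/-- the exact rank set -/
def exact (Gt : ℕ → ℕ → M → ℝ) (k : ℕ) : Set M :=
  {y | RankGE (gm Gt y) k ∧ ¬ RankGE (gm Gt y) (k + 1)}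

/-- `liminf_l l μ(bad_l(p))` -/
noncomputable def Ps (Gt : ℕ → ℕ → M → ℝ) (W : ℕ → M → M → ℝ) (μ : Measure M) (I : Finset ℕ)
    (n : ℕ) (O : Set M) (p : M) : ℝ≥0∞ :=
  liminf (fun l : ℕ => ((l : ℝ≥0∞) + 1) * μ (bad Gt W I n O l p)) atTop

theorem static_avoid [SFinite m] {Gt : ℕ → ℕ → M → ℝ} {W : ℕ → M → M → ℝ}
    (hGt : ∀ i j, Measurable (Gt i j)) (hW : ∀ i, Measurable fun q : M × M => W i q.1 q.2)
    (hpsd : ∀ p R, 0 < R → ∀ᵐ y ∂m, dist p y < R → PSD (ext (gm Gt y) (wv W p y) 1))
    (x₀ : M) (k : ℕ) (μ : Measure M) [IsFiniteMeasure μ] (hμ : μ ≪ m.restrict (Metric.ball x₀ k))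
    {A : ℝ} (hSB : ∀ᵐ y ∂m, dist x₀ y < k → ∀ (K : Finset ℕ) (c : ℕ → ℝ),
      ∑ i ∈ K, ∑ j ∈ K, c i * c j * gm Gt y i j = 1 → ∀ ε > 0,
        m {p | dist x₀ p < k ∧ |∑ i ∈ K, c i * wv W p y i| < ε} ≤ ENNReal.ofReal (A * ε))
    (I : Finset ℕ) (n : ℕ) :
    ∃ O : ℕ → Set M, (∀ N, IsOpen (O N)) ∧ (∀ N, exact Gt I.card ⊆ O N) ∧
      ∀ᵐ p ∂m, dist x₀ p < k → ⨅ N, Ps Gt W μ I n (O N) p = 0 := by
  classical
  have hgm : ∀ i j, Measurable fun y : M => gm Gt y i j := hGt
  have hgm2 : ∀ i j, Measurable fun q : M × M => gm Gt q.2 i j := fun i j => (hGt i j).comp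
    measurable_snd
  have hwv2 : ∀ i, Measurable fun q : M × M => wv W q.1 q.2 i := hW
  -- open supersets of the exact rank set
  have hD : MeasurableSet (exact Gt I.card) :=
    (measurableSet_rankGE hgm _).inter (measurableSet_rankGE hgm _).compl
  have hex : ∀ N : ℕ, ∃ O : Set M, exact Gt I.card ⊆ O ∧ IsOpen O ∧
      μ (O \ exact Gt I.card) < (1 / ((N : ℝ≥0∞) + 1)) := by
    intro N
    obtain ⟨U, h1, h2, -, h3⟩ := hD.exists_isOpen_diff_lt (μ := μ) (measure_ne_top _ _)
      (ε := 1 / ((N : ℝ≥0∞) + 1)) (by simp)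
    exact ⟨U, h1, h2, h3⟩
  choose O hO1 hO2 hO3 using hex
  refine ⟨O, hO2, hO1, ?_⟩
  set B := Metric.ball x₀ (k : ℝ) with hB
  have hBm : MeasurableSet B := measurableSet_ball
  set ν := m.restrict B with hν
  -- measurability
  have hT : ∀ N l, MeasurableSet {q : M × M | q.2 ∈ bad Gt W I n (O N) l q.1} := by
    intro N l
    have h1 : MeasurableSet {q : M × M | q.2 ∈ O N} := measurable_snd (hO2 N).measurableSet
    have h2 : MeasurableSet {q : M × M | RankGE (gm Gt q.2) (I.card + 1)} :=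
      measurableSet_rankGE hgm2 _
    have h3 : MeasurableSet {q : M × M | 1 / ((n : ℝ) + 1) < (sub (gm Gt q.2) I).det} :=
      measurableSet_lt measurable_const (measurable_det hgm2 I)
    have h4 : MeasurableSet {q : M × M | alpha2 (gm Gt q.2) (wv W q.1 q.2) 1 I
        < (1 / ((l : ℝ) + 1)) ^ 2} :=
      measurableSet_lt (measurable_alpha2 hgm2 hwv2 measurable_const I) measurable_const
    exact h1.inter (h2.inter (h3.inter h4))
  -- the swapped PSD statement
  have hZ : MeasurableSet {q : M × M | PSD (ext (gm Gt q.2) (wv W q.1 q.2) 1)} := by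
    refine measurableSet_psd ?_
    rintro (_ | i) (_ | j)
    · exact measurable_const
    · exact hwv2 j
    · exact hwv2 i
    · exact hgm2 i j
  have hswap : ∀ᵐ y ∂μ, ∀ᵐ p ∂ν, PSD (ext (gm Gt y) (wv W p y) 1) := by
    have h1 : ν.prod μ {q : M × M | PSD (ext (gm Gt q.2) (wv W q.1 q.2) 1)}ᶜ = 0 := by
      rw [Measure.prod_apply hZ.compl, lintegral_eq_zero_iff (measurable_measure_prodMk_left hZ.compl)]
      filter_upwards [ae_restrict_mem hBm] with p hp
      have h2 : ∀ᵐ y ∂μ, PSD (ext (gm Gt y) (wv W p y) 1) := by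
        refine hμ.ae_le ?_
        have hk : (0 : ℝ) < k := (dist_nonneg).trans_lt (Metric.mem_ball.1 hp)
        filter_upwards [ae_restrict_of_ae (hpsd p (2 * k) (by linarith)), ae_restrict_mem hBm]
          with y h3 h4
        refine h3 ?_
        have h5 := Metric.mem_ball.1 h4
        have h6 := Metric.mem_ball.1 hp
        have h7 := dist_triangle p x₀ y
        rw [dist_comm x₀ y] at h7
        linarith
      exact h2
    rw [Measure.prod_apply_symm hZ.compl,
      lintegral_eq_zero_iff (measurable_measure_prodMk_right hZ.compl)] at h1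
    exact h1
  -- the key estimate
  have hkey : ∀ N l : ℕ, ∫⁻ p, ((l : ℝ≥0∞) + 1) * μ (bad Gt W I n (O N) l p) ∂ν
      ≤ ENNReal.ofReal A * (1 / ((N : ℝ≥0∞) + 1)) := by
    intro N l
    have hm1 : Measurable fun p => μ (bad Gt W I n (O N) l p) :=
      measurable_measure_prodMk_left (hT N l)
    rw [lintegral_const_mul _ hm1]
    have h1 : ∫⁻ p, μ (bad Gt W I n (O N) l p) ∂ν
        = ∫⁻ y, ν {p | y ∈ bad Gt W I n (O N) l p} ∂μ := by
      have e1 := Measure.prod_apply (μ := ν) (ν := μ) (hT N l)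
      rw [Measure.prod_apply_symm (hT N l)] at e1
      exact e1.symm
    rw [h1]
    have h2 : ∫⁻ y, ν {p | y ∈ bad Gt W I n (O N) l p} ∂μ
        ≤ ∫⁻ y, (O N \ exact Gt I.card).indicator (fun _ => ENNReal.ofReal (A * (1 / ((l : ℝ) + 1)))) y
          ∂μ := by
      refine lintegral_mono_ae ?_
      have hSB' : ∀ᵐ y ∂μ, ∀ (K : Finset ℕ) (c : ℕ → ℝ),
          ∑ i ∈ K, ∑ j ∈ K, c i * c j * gm Gt y i j = 1 → ∀ ε > 0,
          m {p | dist x₀ p < k ∧ |∑ i ∈ K, c i * wv W p y i| < ε} ≤ ENNReal.ofReal (A * ε) := by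
        refine hμ.ae_le ?_
        filter_upwards [ae_restrict_of_ae hSB, ae_restrict_mem hBm] with y h3 h4
        exact h3 (by rw [dist_comm]; exact Metric.mem_ball.1 h4)
      have hpsd' : ∀ᵐ y ∂μ, PSD (gm Gt y) := by
        refine hμ.ae_le ?_
        by_cases hk : (0 : ℝ) < k
        · filter_upwards [ae_restrict_of_ae (hpsd x₀ k hk), ae_restrict_mem hBm] with y h3 h4
          exact (h3 (by rw [dist_comm]; exact Metric.mem_ball.1 h4)).of_ext
        · have : B = ∅ := Metric.ball_eq_empty.2 (not_lt.1 hk)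
          rw [hν, this, Measure.restrict_empty]; simp
      filter_upwards [hswap, hSB', hpsd'] with y h3 h4 h5
      by_cases hy : y ∈ O N ∧ RankGE (gm Gt y) (I.card + 1) ∧
          1 / ((n : ℝ) + 1) < (sub (gm Gt y) I).det
      · obtain ⟨y1, y2, y3⟩ := hy
        have hdet : 0 < (sub (gm Gt y) I).det := lt_trans (by positivity) y3
        rw [indicator_of_mem (show y ∈ O N \ exact Gt I.card from ⟨y1, fun h => h.2 y2⟩)]
        obtain ⟨K, c, hc1, hc2⟩ := exists_unit_orth h5 hdet y2
        have hl : (0 : ℝ) < 1 / ((l : ℝ) + 1) := by positivity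
        have h6 := h4 K c hc1 _ hl
        refine le_trans ?_ h6
        rw [hν, Measure.restrict_apply' hBm]
        have h7 : ∀ᵐ p ∂m, p ∈ B → PSD (ext (gm Gt y) (wv W p y) 1) :=
          (ae_restrict_iff' hBm).1 h3
        refine measure_mono_ae ?_
        filter_upwards [h7] with p h8
        rintro ⟨h9, h10⟩
        have h11 := hc2 _ _ (h8 h10)
        refine ⟨by rw [dist_comm]; exact Metric.mem_ball.1 h10, ?_⟩
        exact abs_lt_of_sq_lt_sq (h11.trans_lt h9.2.2.2) hl.le
      · have : {p | y ∈ bad Gt W I n (O N) l p} = ∅ := by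
          ext p
          simp only [bad, mem_ofPred_eq, mem_empty_iff_false, iff_false]
          rintro ⟨y1, y2, y3, -⟩
          exact hy ⟨y1, y2, y3⟩
        rw [this, measure_empty]; exact zero_le
    refine (mul_le_mul_right h2 _).trans ?_
    rw [lintegral_indicator ((hO2 N).measurableSet.diff hD), setLIntegral_const, ← mul_assoc]
    have h3 : ((l : ℝ≥0∞) + 1) * ENNReal.ofReal (A * (1 / ((l : ℝ) + 1))) = ENNReal.ofReal A := by
      have e1 : ((l : ℝ≥0∞) + 1) = ENNReal.ofReal ((l : ℝ) + 1) := by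
        rw [ENNReal.ofReal_add (by positivity) zero_le_one, ENNReal.ofReal_natCast,
          ENNReal.ofReal_one]
      rw [e1, ← ENNReal.ofReal_mul (by positivity)]
      congr 1
      field_simp
    rw [h3]
    exact mul_le_mul_right (hO3 N).le _
  -- Fatou
  have hmPs : ∀ N, Measurable fun p => Ps Gt W μ I n (O N) p := fun N =>
    Measurable.liminf fun l => (measurable_measure_prodMk_left (hT N l)).const_mul _
  have hint : ∀ N, ∫⁻ p, Ps Gt W μ I n (O N) p ∂ν ≤ ENNReal.ofReal A * (1 / ((N : ℝ≥0∞) + 1)) := by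
    intro N
    refine (lintegral_liminf_le fun l =>
      (measurable_measure_prodMk_left (hT N l)).const_mul _).trans ?_
    refine (liminf_le_liminf (Eventually.of_forall fun l => hkey N l)).trans ?_
    simp
  have hzero : ∫⁻ p, ⨅ N, Ps Gt W μ I n (O N) p ∂ν = 0 := by
    refine le_antisymm (le_of_forall_pos_le_add ?_) zero_le
    intro ε hε
    have hlim : Tendsto (fun N : ℕ => ENNReal.ofReal A * (1 / ((N : ℝ≥0∞) + 1))) atTop (𝓝 0) := by
      have h1 : Tendsto (fun N : ℕ => ((((N + 1 : ℕ) : ℝ≥0∞))⁻¹)) atTop (𝓝 0) :=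
        ENNReal.tendsto_inv_nat_nhds_zero.comp (tendsto_add_atTop_nat 1)
      have h2 := ENNReal.Tendsto.const_mul h1 (Or.inr (ENNReal.ofReal_ne_top (r := A)))
      rw [mul_zero] at h2
      refine h2.congr fun N => ?_
      simp
    obtain ⟨N, hN⟩ := (hlim.eventually (eventually_le_nhds hε)).exists
    rw [zero_add]
    exact (lintegral_mono fun p => iInf_le _ N).trans ((hint N).trans hN)
  have hfin := (lintegral_eq_zero_iff (Measurable.iInf hmPs)).1 hzero
  have h1 := (ae_restrict_iff' hBm).1 hfin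
  filter_upwards [h1] with p hp hpk
  exact hp (by rw [hB, Metric.mem_ball, dist_comm]; exact hpk)

end static

end Vale.Agent.P233.H450
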