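import Vale.Agent.P233.H450.E3a
import Vale.Agent.P233.H450.Avoid3

/-! # P233, E3 (avoidance): the block `Blk_E3` -/

set_option linter.all false

open MeasureTheory Filter Topology Set
open scoped ENNReal NNReal InnerProductSpace

universe u

namespace Vale.Agent.P233.H450

section lin

variable {ι : Type*} [DecidableEq ι]

theorem alpha2_scale (A : ι → ι → ℝ) (q : ι → ℝ) (L s : ℝ) (I : Finset ι) :
    alpha2 A (fun i => s * q i) (s ^ 2 * L) I = s ^ 2 * alpha2 A q L I := by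
  have h1 : proj A (fun i => s * q i) I = s • proj A q I := by
    rw [proj_eq, proj_eq]
    have : (fun i : I => s * q i) = s • fun i : I => q i := rfl
    rw [this, Matrix.mulVec_smul, smul_comm]
  unfold alpha2
  rw [h1]
  have h2 : (fun i : I => s * q i) = s • fun i : I => q i := rfl
  rw [h2, smul_dotProduct, dotProduct_smul, smul_eq_mul, smul_eq_mul]
  ring

theorem PSD.det_nonneg {A : ι → ι → ℝ} (hA : PSD A) (I : Finset ι) : 0 ≤ (sub A I).det := by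
  obtain ⟨n, _, x, v, hx, -, -⟩ := hA.ext_zero.exists_real I
  rw [hx.sub_eq subset_rfl]
  exact (Matrix.posSemidef_gram ℝ _).det_nonneg

end lin

theorem rankEq_of {A : ℕ → ℕ → ℝ} (hA : PSD A) {k : ℕ} (h1 : RankGE A k)
    (h2 : ¬ RankGE A (k + 1)) : RankEq A k := by
  obtain ⟨s, hs, hd⟩ := h1
  refine ⟨⟨s, hs, hd.ne'⟩, fun s hs => ?_⟩
  by_contra hne
  exact h2 ⟨s, hs, lt_of_le_of_ne (hA.det_nonneg s) (Ne.symm hne)⟩

variable {M : Type u} [MetricSpace M] [MeasurableSpace M] [BorelSpace M]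
  [SecondCountableTopology M] {m : Measure M} {E : Type*} [NormedAddCommGroup E]
  [InnerProductSpace ℝ E] {Gr : (M →ₘ[m] ℝ) → M → E} {HO : (M →ₘ[m] ℝ) → M → E →L[ℝ] E}
  {e : ℕ → M →ₘ[m] ℝ} {Gt : ℕ → ℕ → M → ℝ} {W : ℕ → M → M → ℝ} {K N : ℝ} {p : M} {s₀ C₀ : ℝ}
  {Y : ℝ → M → M}

theorem psd_static (hE : Stat (sob m) Gr HO e)
    (hP : ∀ i j, Precise Gr HO ((sob m).Γ (e i) (e j)) (Gt i j)) (hW : JointW Gr e W)
    (p : M) (R : ℝ) (hR : 0 < R) :
    ∀ᵐ y ∂m, dist p y < R → PSD (ext (gm Gt y) (wv W p y) 1) := by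
  filter_upwards [gt_ae hE hP, ae_all_iff.2 fun i => hW.eq i p R hR, hW.unit p R hR]
    with y h1 h2 h3 hy
  refine psd_ext_gram (fun i => Gr (e i) y) (Gr (cl m (dtr p R)) y) h1 (fun i => h2 i hy) ?_
  rw [real_inner_self_eq_norm_sq, h3 hy, one_pow]

theorem cmr_onFinset {V : Type*} [AddCommGroup V] [Module ℝ V] (w : ℕ → V) (K : Finset ℕ)
    (c : ℕ → ℝ) (h : ∀ i, (if i ∈ K then c i else 0) ≠ 0 → i ∈ K) :
    cmr w (Finsupp.onFinset K (fun i => if i ∈ K then c i else 0) h) = ∑ i ∈ K, c i • w i := by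
  unfold cmr
  rw [Finsupp.onFinset_sum _ (fun i => by simp)]
  exact Finset.sum_congr rfl fun i hi => by rw [if_pos hi]

theorem sb_static (hE : Stat (sob m) Gr HO e)
    (hP : ∀ i j, Precise Gr HO ((sob m).Γ (e i) (e j)) (Gt i j)) (hB : SmallBalls Gr e W)
    (x₀ : M) (R : ℝ) : ∃ A : ℝ, ∀ᵐ y ∂m, dist x₀ y < R → ∀ (K : Finset ℕ) (c : ℕ → ℝ),
      ∑ i ∈ K, ∑ j ∈ K, c i * c j * gm Gt y i j = 1 → ∀ ε > 0,
        m {p | dist x₀ p < R ∧ |∑ i ∈ K, c i * wv W p y i| < ε} ≤ ENNReal.ofReal (A * ε) := by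
  classical
  obtain ⟨A, hA⟩ := hB x₀ R
  refine ⟨A, ?_⟩
  filter_upwards [hA, gt_ae hE hP] with y h1 h2 hy K c hc ε hε
  set c' : ℕ →₀ ℝ := Finsupp.onFinset K (fun i => if i ∈ K then c i else 0)
    (fun i hi => by by_contra h; simp [h] at hi) with hc'
  have h3 : ‖cmr (fun i => Gr (e i) y) c'‖ = 1 := by
    have h4 : ‖cmr (fun i => Gr (e i) y) c'‖ ^ 2 = 1 := by
      rw [hc', cmr_onFinset, ← real_inner_self_eq_norm_sq, sum_inner, ← hc]
      refine Finset.sum_congr rfl fun i _ => ?_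
      rw [inner_sum]
      refine Finset.sum_congr rfl fun j _ => ?_
      rw [real_inner_smul_left, real_inner_smul_right, gm, h2 i j]; ring
    have h5 := norm_nonneg (cmr (fun i => Gr (e i) y) c')
    nlinarith
  have h6 := h1 hy c' h3 ε hε
  refine le_trans (measure_mono ?_) h6
  rintro p ⟨h7, h8⟩
  refine ⟨h7, ?_⟩
  rw [hc', cmr_onFinset]
  exact h8

/-- weights for the Hessians -/
theorem exists_weight (hS : Std m K N) (hE : Stat (sob m) Gr HO e) :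
    ∃ w : ℕ → M → ℝ≥0∞, (∀ i, Measurable (w i)) ∧ (∀ᵐ y ∂m, ∀ i, ‖HO (e i) y‖ₑ ≤ w i y) ∧
      ∀ i (x₀ : M) (R : ℝ), ∫⁻ y in Metric.ball x₀ R, w i y ∂m < ∞ := by
  obtain ⟨c, hc⟩ := hE.hess.norm
  choose L hL1 hL2 hL3 using fun i => hc (e i) (hE.testI i).1
  refine ⟨fun i y => ‖(hL1 i).1.mk (L i) y‖ₑ, fun i => ?_, ae_all_iff.2 fun i => ?_, ?_⟩
  · exact (hL1 i).1.stronglyMeasurable_mk.measurable.enorm
  · filter_upwards [hL2 i, (hL1 i).1.ae_eq_mk] with y h1 h2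
    rw [← h2]
    rw [← ofReal_norm, ← ofReal_norm]
    exact ENNReal.ofReal_le_ofReal (h1.trans (by rw [Real.norm_eq_abs]; exact le_abs_self _))
  · intro i x₀ R
    have h1 : MemLp (L i) 1 (m.restrict (Metric.ball x₀ R)) := by
      haveI : IsFiniteMeasure (m.restrict (Metric.ball x₀ R)) :=
        ⟨by rw [Measure.restrict_apply_univ]; exact hS.hfin x₀ R⟩
      exact ((hL1 i).restrict _).mono_exponent (by norm_num)
    have h2 : ∫⁻ y in Metric.ball x₀ R, ‖L i y‖ₑ ∂m < ∞ := (memLp_one_iff_integrable.1 h1).2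
    refine lt_of_le_of_lt (le_of_eq ?_) h2
    refine lintegral_congr_ae (ae_restrict_of_ae ?_)
    filter_upwards [(hL1 i).1.ae_eq_mk] with y hy
    rw [hy]

theorem lint_unif [SFinite m] (hF : Flow Gr HO p s₀ C₀ Y) {s : ℝ} (hs : s ∈ Ioc (0 : ℝ) 1) :
    ∃ A : ℝ≥0, ∀ F : M → ℝ≥0∞, Measurable F →
    ∫⁻ x, (∫⁻ t in Ioo s (1 - s), F (Y t x)) ∂m ≤ A * ∫⁻ x, F x ∂m := by
  have hns := FA.ns hF
  obtain ⟨A, hA⟩ := hns.comp s hs
  refine ⟨A, fun F hFm => ?_⟩
  rw [lintegral_lintegral_swap (f := fun x t => F (Y t x)) (hFm.comp hns.meas_swap).aemeasurable]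
  calc ∫⁻ t in Ioo s (1 - s), ∫⁻ x, F (Y t x) ∂m
      ≤ ∫⁻ t in Ioo s (1 - s), (A * ∫⁻ x, F x ∂m) := by
        refine setLIntegral_mono' measurableSet_Ioo fun t ht => ?_
        exact hns.lint_t (hA t ⟨ht.1.le, by linarith [ht.2, hs.1]⟩) hFm
    _ = (A * ∫⁻ x, F x ∂m) * ENNReal.ofReal (1 - s - s) := by
        rw [setLIntegral_const, Real.volume_Ioo]
    _ ≤ (A * ∫⁻ x, F x ∂m) * 1 := by
        gcongr
        rw [← ENNReal.ofReal_one]
        exact ENNReal.ofReal_le_ofReal (by linarith [hs.1])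
    _ = _ := mul_one _

/-- the weighted measure -/
noncomputable def muI (m : Measure M) (w : ℕ → M → ℝ≥0∞) (x₀ : M) (k : ℕ) (I : Finset ℕ) :
    Measure M :=
  (m.restrict (Metric.ball x₀ k)).withDensity fun y => 1 + ∑ i ∈ I, w i y

theorem muI_finite (hS : Std m K N) {w : ℕ → M → ℝ≥0∞} (hwm : ∀ i, Measurable (w i))
    (hw : ∀ i (x₀ : M) (R : ℝ), ∫⁻ y in Metric.ball x₀ R, w i y ∂m < ∞) (x₀ : M) (k : ℕ)
    (I : Finset ℕ) : IsFiniteMeasure (muI m w x₀ k I) := by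
  unfold muI
  refine isFiniteMeasure_withDensity ?_
  rw [lintegral_add_left measurable_const, lintegral_finsetSum _ fun i _ => hwm i,
    lintegral_one, Measure.restrict_apply_univ]
  exact ENNReal.add_ne_top.2 ⟨(hS.hfin x₀ k).ne, (ENNReal.sum_lt_top.2 fun i _ => hw i x₀ k).ne⟩

theorem measurableSet_bad (hGt : ∀ i j, Measurable (Gt i j))
    (hW : ∀ i, Measurable fun q : M × M => W i q.1 q.2) (I : Finset ℕ) (n : ℕ) {O : Set M}
    (hO : IsOpen O) (l : ℕ) (p : M) : MeasurableSet (bad Gt W I n O l p) := by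
  have hgm : ∀ i j, Measurable fun y : M => gm Gt y i j := hGt
  have hwv : ∀ i, Measurable fun y : M => wv W p y i := fun i =>
    (hW i).comp (measurable_const.prodMk measurable_id)
  have h1 : MeasurableSet {y : M | y ∈ O} := hO.measurableSet
  have h2 : MeasurableSet {y : M | RankGE (gm Gt y) (I.card + 1)} := measurableSet_rankGE hgm _
  have h3 : MeasurableSet {y : M | 1 / ((n : ℝ) + 1) < (sub (gm Gt y) I).det} :=
    measurableSet_lt measurable_const (measurable_det hgm I)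
  have h4 : MeasurableSet {y : M | alpha2 (gm Gt y) (wv W p y) 1 I < (1 / ((l : ℝ) + 1)) ^ 2} :=
    measurableSet_lt (measurable_alpha2 hgm hwv measurable_const I) measurable_const
  exact h1.inter (h2.inter (h3.inter h4))

/-- avoidance for one good centre -/
theorem flow_avoid (hS : Std m K N) (hE : Stat (sob m) Gr HO e)
    (hP : ∀ i j, Precise Gr HO ((sob m).Γ (e i) (e j)) (Gt i j))
    (hF : Flow Gr HO p s₀ C₀ Y) (hSV : StrongV Gr HO e Gt p s₀ C₀ Y) (hW : JointW Gr e W)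
    (hR : FinRank Gr e) {w : ℕ → M → ℝ≥0∞} (hwm : ∀ i, Measurable (w i))
    (hw : ∀ᵐ y ∂m, ∀ i, ‖HO (e i) y‖ₑ ≤ w i y) {x₀ : M}
    {O : Finset ℕ → ℕ → ℕ → ℕ → Set M} (hO : ∀ I n k N, IsOpen (O I n k N))
    (hOx : ∀ I n k N, exact Gt I.card ⊆ O I n k N)
    (hgood : ∀ (I : Finset ℕ) (n k : ℕ), dist x₀ p < k →
      ⨅ N, Ps Gt W (muI m w x₀ k I) I n (O I n k N) p = 0) :
    ∀ᵐ x ∂m, dist p x ^ 2 < 2 * C₀ * (1 + s₀) → 0 < dist p x →
      ∃ k, ∀ t ∈ Ioo (0 : ℝ) 1, RankGE (fun i j => Gt i j (Y t x)) k ∧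
        ¬ RankGE (fun i j => Gt i j (Y t x)) (k + 1) := by
  classical
  haveI := FA.sf hS
  have hns := FA.ns hF
  have hGtm : ∀ i j, Measurable (Gt i j) := fun i j => (hP i j).1
  have hs₀ := hF.hs₀
  have hC₀ := hF.hC₀
  have hpos : 0 < 2 * C₀ * (1 + s₀) := by positivity
  obtain ⟨Λ, Λ', hΛ⟩ := curve_bound hS hE hP hF hSV
  obtain ⟨N₀, hN₀⟩ := curve_rank hS hE hP hF hSV hR
  have hCst : ∀ (I : Finset ℕ) (n : ℕ), ∃ C : ℝ, 0 ≤ C ∧ ∀ (A : ℕ → ℕ → ℝ) (q : ℕ → ℝ),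
      (∀ i j, |A i j| ≤ Λ i j) → (∀ i, |q i| ≤ Λ' i) → 1 / ((n : ℝ) + 1) ≤ (sub A I).det →
      ∀ i : I, |proj A q I i| ≤ C := fun I n => exists_Cst Λ Λ' I (by positivity)
  choose C hC0 hC using hCst
  set R := √(2 * C₀ * (1 + s₀)) with hRdef
  obtain ⟨k, hk⟩ := exists_nat_gt (dist x₀ p + R)
  have hRpos : 0 < R := Real.sqrt_pos.2 hpos
  have hkp : dist x₀ p < k := by linarith
  set B := Metric.ball x₀ (k : ℝ) with hB
  have hBm : MeasurableSet B := measurableSet_ball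
  -- the functions of the estimate
  set D : Finset ℕ → ℕ → ℝ≥0∞ := fun I n => 1 + ENNReal.ofReal (C I n) * ENNReal.ofReal √(2 * C₀)
    with hD
  have hDtop : ∀ I n, D I n ≠ ∞ := fun I n =>
    ENNReal.add_ne_top.2 ⟨ENNReal.one_ne_top, ENNReal.mul_ne_top ENNReal.ofReal_ne_top
      ENNReal.ofReal_ne_top⟩
  set F : Finset ℕ → ℕ → ℕ → ℕ → M → ℝ≥0∞ := fun I n N l =>
    (bad Gt W I n (O I n k N) l p ∩ B).indicator fun y => D I n * (1 + ∑ i ∈ I, w i y) with hFd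
  have hbm : ∀ I n N l, MeasurableSet (bad Gt W I n (O I n k N) l p) := fun I n N l =>
    measurableSet_bad hGtm hW.meas I n (hO I n k N) l p
  have hwI : ∀ I : Finset ℕ, Measurable fun y => 1 + ∑ i ∈ I, w i y := fun I =>
    measurable_const.add (Finset.measurable_sum _ fun i _ => hwm i)
  have hFm : ∀ I n N l, Measurable (F I n N l) := fun I n N l =>
    ((hwI I).const_mul _).indicator ((hbm I n N l).inter hBm)
  have hFint : ∀ I n N l, ∫⁻ y, F I n N l y ∂m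
      = D I n * muI m w x₀ k I (bad Gt W I n (O I n k N) l p) := by
    intro I n N l
    rw [hFd]
    simp only
    rw [lintegral_indicator ((hbm I n N l).inter hBm), lintegral_const_mul _ (hwI I), muI,
      withDensity_apply _ (hbm I n N l), Measure.restrict_restrict (hbm I n N l)]
  set δ : ℕ → ℝ := fun n => 1 / ((n : ℝ) + 1) with hδ
  have hδ0 : ∀ n, 0 < δ n := fun n => by simp only [hδ]; positivity
  set Φ : Finset ℕ → ℕ → ℕ → ℕ → M → ℝ≥0∞ := fun I n N l x =>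
    ((l : ℝ≥0∞) + 1) * ∫⁻ r in Ioo (δ n) (1 - δ n), F I n N l (Y r x) with hΦ
  have hΦm : ∀ I n N l, Measurable (Φ I n N l) := by
    intro I n N l
    have h3 : Measurable fun q : M × ℝ => F I n N l (Y q.2 q.1) := (hFm I n N l).comp hns.meas_swap
    exact (h3.lintegral_prod_right' (ν := volume.restrict (Ioo (δ n) (1 - δ n)))).const_mul _
  -- null sets
  have hnull : ∀ I n, ∀ᵐ x ∂m, ∃ N, liminf (fun l => Φ I n N l x) atTop < ENNReal.ofReal √(δ n) := by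
    intro I n
    have hδ1 : δ n ∈ Ioc (0 : ℝ) 1 := by
      refine ⟨hδ0 n, ?_⟩
      simp only [hδ]
      rw [div_le_one (by positivity)]; linarith [(Nat.cast_nonneg n : (0 : ℝ) ≤ n)]
    obtain ⟨A, hA⟩ := lint_unif hF hδ1
    have h1 : ∀ N, ∫⁻ x, liminf (fun l => Φ I n N l x) atTop ∂m
        ≤ A * D I n * Ps Gt W (muI m w x₀ k I) I n (O I n k N) p := by
      intro N
      refine (lintegral_liminf_le fun l => hΦm I n N l).trans ?_
      have h2 : ∀ l : ℕ, ∫⁻ x, Φ I n N l x ∂m ≤ A * D I n *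
          (((l : ℝ≥0∞) + 1) * muI m w x₀ k I (bad Gt W I n (O I n k N) l p)) := by
        intro l
        have h3 : Measurable fun q : M × ℝ => F I n N l (Y q.2 q.1) :=
          (hFm I n N l).comp hns.meas_swap
        rw [hΦ]
        simp only
        rw [lintegral_const_mul _
          (h3.lintegral_prod_right' (ν := volume.restrict (Ioo (δ n) (1 - δ n))))]
        refine (mul_le_mul_right (hA _ (hFm I n N l)) _).trans_eq ?_
        rw [hFint]; ring
      refine (liminf_le_liminf (Eventually.of_forall h2)).trans_eq ?_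
      rw [ENNReal.liminf_const_mul_of_ne_top (ENNReal.mul_ne_top ENNReal.coe_ne_top (hDtop I n))]
      rfl
    have h4 : m {x | ∀ N, ENNReal.ofReal √(δ n) ≤ liminf (fun l => Φ I n N l x) atTop} = 0 := by
      have hsq : ENNReal.ofReal √(δ n) ≠ 0 := by
        rw [ne_eq, ENNReal.ofReal_eq_zero, not_le]; exact Real.sqrt_pos.2 (hδ0 n)
      have h5 : ∀ N, ENNReal.ofReal √(δ n) *
          m {x | ∀ N, ENNReal.ofReal √(δ n) ≤ liminf (fun l => Φ I n N l x) atTop}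
          ≤ A * D I n * Ps Gt W (muI m w x₀ k I) I n (O I n k N) p := by
        intro N
        refine le_trans ?_ (h1 N)
        have hm : Measurable fun x => liminf (fun l => Φ I n N l x) atTop :=
          Measurable.liminf fun l => hΦm I n N l
        refine le_trans ?_ (mul_meas_ge_le_lintegral₀ hm.aemeasurable (ENNReal.ofReal √(δ n)))
        exact mul_le_mul_right (measure_mono
          (show {x | ∀ N, ENNReal.ofReal √(δ n) ≤ liminf (fun l => Φ I n N l x) atTop} ⊆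
            {x | ENNReal.ofReal √(δ n) ≤ liminf (fun l => Φ I n N l x) atTop} from
              fun x hx => hx N)) _
      have h6 : ENNReal.ofReal √(δ n) *
          m {x | ∀ N, ENNReal.ofReal √(δ n) ≤ liminf (fun l => Φ I n N l x) atTop}
          ≤ A * D I n * ⨅ N, Ps Gt W (muI m w x₀ k I) I n (O I n k N) p := by
        rw [ENNReal.mul_iInf fun h => absurd h (ENNReal.mul_ne_top ENNReal.coe_ne_top (hDtop I n))]
        exact le_iInf h5
      rw [hgood I n k hkp, mul_zero, nonpos_iff_eq_zero, mul_eq_zero] at h6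
      exact h6.resolve_left hsq
    rw [ae_iff]
    convert h4 using 2
    ext x
    simp
  -- the conclusion along a good curve
  have hWeq : ∀ᵐ y ∂m, ∀ i, dist p y < R → W i p y = ⟪Gr (e i) y, rdir Gr p s₀ C₀ y⟫_ℝ :=
    ae_all_iff.2 fun i => hW.eq i p R hRpos
  filter_upwards [curve_gram hS hE hP hF hSV, hΛ, hN₀, ae_all_iff.2 fun I => ae_all_iff.2 (hnull I),
    hns.ae' hWeq, hns.ae' hw, vel_norm hS hF, hF.geod] with x a1 a2 a3 a4 a5 a6 a7 a8 hx hx0
  obtain ⟨b1, b2⟩ := a1 hx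
  have hspd : spd p s₀ C₀ x = dist p x / (1 + s₀) := by rw [spd, if_pos hx]
  have hspd0 : 0 < spd p s₀ C₀ x := by rw [hspd]; positivity
  rcases b2.const_or_bad (a2 hx).1 (a2 hx).2 (a3 hx) (C := C) (fun I n A q => hC I n A q)
    (by positivity) with h | h
  · exact h
  exfalso
  obtain ⟨I, n, t₀, ht₀, hr1, hr2, hL, hbad⟩ := h
  obtain ⟨N, hN⟩ := a4 I n
  refine absurd hN (not_lt.2 ?_)
  -- the neighbourhood of `t₀`
  have hV : {t | t ∈ Ioo (0 : ℝ) 1 ∧ Y t x ∈ O I n k N} ∈ 𝓝 t₀ := by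
    have hYc : ContinuousAt (fun t => Y t x) t₀ := by
      rw [Metric.continuousAt_iff]
      intro ε hε
      have h1 : 0 < ε / (spd p s₀ C₀ x + 1) := by positivity
      obtain ⟨η, hη, hη2⟩ := Metric.mem_nhds_iff.1 (Ioo_mem_nhds ht₀.1 ht₀.2)
      refine ⟨min η (ε / (spd p s₀ C₀ x + 1)), lt_min hη h1, fun {t} ht => ?_⟩
      have ht1 : t ∈ Ioo (0 : ℝ) 1 := hη2 (Metric.mem_ball.2 (ht.trans_le (min_le_left _ _)))
      rw [a8 t (Ioo_subset_Ioc_self ht1) t₀ (Ioo_subset_Ioc_self ht₀)]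
      have h2 : |t - t₀| < ε / (spd p s₀ C₀ x + 1) := by
        rw [← Real.dist_eq]; exact ht.trans_le (min_le_right _ _)
      calc spd p s₀ C₀ x * |t - t₀| ≤ (spd p s₀ C₀ x + 1) * |t - t₀| := by
            nlinarith [abs_nonneg (t - t₀)]
        _ < (spd p s₀ C₀ x + 1) * (ε / (spd p s₀ C₀ x + 1)) := by
            exact mul_lt_mul_of_pos_left h2 (by positivity)
        _ = ε := by field_simp
    have h3 : Y t₀ x ∈ O I n k N := hOx I n k N ⟨hr1, hr2⟩
    exact inter_mem (Ioo_mem_nhds ht₀.1 ht₀.2)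
      (hYc.preimage_mem_nhds ((hO I n k N).mem_nhds h3))
  obtain ⟨e₀, he₀, hest⟩ := hbad _ hV
  refine le_liminf_of_le (by isBoundedDefault) ?_
  have hlim : Tendsto (fun l : ℕ => √(δ n) * (1 / ((l : ℝ) + 1))) atTop (𝓝 0) := by
    have := (tendsto_one_div_add_atTop_nhds_zero_nat (𝕜 := ℝ)).const_mul √(δ n)
    rwa [mul_zero] at this
  filter_upwards [hlim.eventually (gt_mem_nhds he₀)] with l hl
  have hsq0 : 0 < √(δ n) := Real.sqrt_pos.2 (hδ0 n)
  have hel : √(δ n) * (1 / ((l : ℝ) + 1)) ∈ Ioo 0 e₀ := ⟨by positivity, hl⟩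
  have h1 := hest _ hel
  have h2 : ENNReal.ofReal √(δ n)
      = ((l : ℝ≥0∞) + 1) * ENNReal.ofReal (√(δ n) * (1 / ((l : ℝ) + 1))) := by
    have e1 : ((l : ℝ≥0∞) + 1) = ENNReal.ofReal ((l : ℝ) + 1) := by
      rw [ENNReal.ofReal_add (by positivity) zero_le_one, ENNReal.ofReal_natCast,
        ENNReal.ofReal_one]
    rw [e1, ← ENNReal.ofReal_mul (by positivity)]
    congr 1
    field_simp
  rw [h2, hΦ]
  simp only
  refine mul_le_mul_right (h1.trans ?_) _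
  -- comparison of the integrals
  have hFr : Measurable fun r => F I n N l (Y r x) := (hFm I n N l).comp (hns.meas_x x)
  refine (setLIntegral_mono_ae (g := fun r => F I n N l (Y r x)) hFr.aemeasurable ?_).trans
    (lintegral_mono_set fun r hr => hr.2.1)
  have hIoo : ∀ {Q : ℝ → Prop}, (∀ᵐ t ∂(volume.restrict (Ioo (0 : ℝ) 1)), Q t) →
      ∀ᵐ t ∂(volume : Measure ℝ), t ∈ Ioo (0 : ℝ) 1 → Q t := fun h =>
    (ae_restrict_iff' measurableSet_Ioo).1 h
  filter_upwards [hIoo a5, hIoo a6, hIoo (a7 hx), hIoo b1] with r c5 c6 c7 c1 hr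
  obtain ⟨⟨hr0, hrO⟩, hr1', hrank, hrdet, hra⟩ := hr
  obtain ⟨d1, d2⟩ := c7 hr0
  have hdR : dist p (Y r x) < R := Real.lt_sqrt_of_sq_lt d1
  have hq : (fun i => pw Gr HO p s₀ C₀ Y (e i) r x)
      = fun i => spd p s₀ C₀ x * wv W p (Y r x) i := by
    funext i
    rw [c1 hr0 i, wv, c5 hr0 i hdR, vel, real_inner_smul_right]
  have hmem : Y r x ∈ bad Gt W I n (O I n k N) l p ∩ B := by
    refine ⟨⟨hrO, hrank, hrdet, ?_⟩, ?_⟩
    · have h3 : alpha2 (fun i j => Gt i j (Y r x)) (fun i => pw Gr HO p s₀ C₀ Y (e i) r x)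
          (spd p s₀ C₀ x ^ 2) I = spd p s₀ C₀ x ^ 2 * alpha2 (gm Gt (Y r x)) (wv W p (Y r x)) 1 I := by
        have h4 := alpha2_scale (gm Gt (Y r x)) (wv W p (Y r x)) 1 (spd p s₀ C₀ x) I
        rw [mul_one] at h4
        rw [hq]; exact h4
      rw [h3] at hra
      have h5 : (√(δ n) * (1 / ((l : ℝ) + 1))) ^ 2 = δ n * (1 / ((l : ℝ) + 1)) ^ 2 := by
        rw [mul_pow, Real.sq_sqrt (hδ0 n).le]
      rw [h5] at hra
      have hl2 : 0 < (1 / ((l : ℝ) + 1)) ^ 2 := by positivity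
      by_contra hcon
      push Not at hcon
      have h6 : spd p s₀ C₀ x ^ 2 * (1 / ((l : ℝ) + 1)) ^ 2
          ≤ spd p s₀ C₀ x ^ 2 * alpha2 (gm Gt (Y r x)) (wv W p (Y r x)) 1 I :=
        mul_le_mul_of_nonneg_left hcon (by positivity)
      have h7 : δ n * (1 / ((l : ℝ) + 1)) ^ 2 < spd p s₀ C₀ x ^ 2 * (1 / ((l : ℝ) + 1)) ^ 2 :=
        mul_lt_mul_of_pos_right hL hl2
      linarith
    · rw [hB, Metric.mem_ball, dist_comm]
      have := dist_triangle x₀ p (Y r x)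
      linarith
  simp only [hFd]
  rw [indicator_of_mem hmem]
  -- the weights
  have hterm : ∀ i ∈ I, ‖HO (e i) (Y r x) (vel Gr p s₀ C₀ Y r x)‖ₑ
      ≤ ENNReal.ofReal √(2 * C₀) * w i (Y r x) := by
    intro i _
    have h3 : ‖vel Gr p s₀ C₀ Y r x‖ ≤ √(2 * C₀) := by
      rw [vel, norm_smul, d2, mul_one, Real.norm_eq_abs, abs_of_pos hspd0]
      exact FA.spd_le hs₀ hC₀ x
    have h4 : ‖HO (e i) (Y r x) (vel Gr p s₀ C₀ Y r x)‖ₑ
        ≤ ‖HO (e i) (Y r x)‖ₑ * ‖vel Gr p s₀ C₀ Y r x‖ₑ := by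
      rw [← ofReal_norm, ← ofReal_norm (HO (e i) (Y r x)), ← ofReal_norm (vel Gr p s₀ C₀ Y r x),
        ← ENNReal.ofReal_mul (norm_nonneg _)]
      exact ENNReal.ofReal_le_ofReal ((HO (e i) (Y r x)).le_opNorm _)
    refine h4.trans ?_
    rw [mul_comm]
    refine mul_le_mul' ?_ (c6 hr0 i)
    rw [← ofReal_norm]
    exact ENNReal.ofReal_le_ofReal h3
  have hsum : ∑ i ∈ I, ‖HO (e i) (Y r x) (vel Gr p s₀ C₀ Y r x)‖ₑ
      ≤ ENNReal.ofReal √(2 * C₀) * ∑ i ∈ I, w i (Y r x) := by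
    rw [Finset.mul_sum]; exact Finset.sum_le_sum hterm
  calc (1 : ℝ≥0∞) + ENNReal.ofReal (C I n) *
        ∑ i ∈ I, ‖HO (e i) (Y r x) (vel Gr p s₀ C₀ Y r x)‖ₑ
      ≤ 1 + ENNReal.ofReal (C I n) * (ENNReal.ofReal √(2 * C₀) * ∑ i ∈ I, w i (Y r x)) := by
        gcongr
    _ ≤ D I n * (1 + ∑ i ∈ I, w i (Y r x)) := by
        simp only [hD]
        have : (1 + ENNReal.ofReal (C I n) * ENNReal.ofReal √(2 * C₀)) * (1 + ∑ i ∈ I, w i (Y r x))
            = (1 + ENNReal.ofReal (C I n) * (ENNReal.ofReal √(2 * C₀) * ∑ i ∈ I, w i (Y r x)))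
              + (ENNReal.ofReal (C I n) * ENNReal.ofReal √(2 * C₀) + ∑ i ∈ I, w i (Y r x)) := by
          ring
        rw [this]
        exact le_self_add

/-- the rank at almost every point -/
theorem rank_static (hE : Stat (sob m) Gr HO e)
    (hP : ∀ i j, Precise Gr HO ((sob m).Γ (e i) (e j)) (Gt i j)) (hR : FinRank Gr e) (x₀ : M) :
    ∀ᵐ x ∂m, ∃ k, RankEq (fun i j => Gt i j x) k := by
  choose N₀ hN using fun n : ℕ => hR x₀ n
  filter_upwards [gt_ae hE hP, ae_all_iff.2 hN] with x h1 h2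
  obtain ⟨n, hn⟩ := exists_nat_gt (dist x₀ x)
  have h3 := h2 n hn
  have hpsd : PSD fun i j => Gt i j x := by
    have := psd_gram (fun i => Gr (e i) x)
    convert this using 3 with i j
    exact h1 i j
  have h4 : ¬ RankGE (fun i j => Gt i j x) (N₀ n + 1) := by
    rintro ⟨s, hs, hd⟩
    refine hd.ne' ?_
    rw [← h3 s hs]
    congr 1
    ext i j
    exact h1 i j
  obtain ⟨k, -, h5, h6⟩ := exists_rank h4
  exact ⟨k, rankEq_of hpsd h5 h6⟩

/-- **E3** (avoidance) -/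
theorem blk_E3 : Blk_E3.{u} := by
  intro M _ _ _ _ m E _ _ _ Gr HO e Gt W K N hS hE hP hSV hW hSB hR
  classical
  haveI := FA.sf hS
  rcases isEmpty_or_nonempty M with hM | ⟨⟨x₀⟩⟩
  · exact Eventually.of_forall fun p => isEmptyElim p
  obtain ⟨w, hwm, hw1, hw2⟩ := exists_weight hS hE
  have hstat : ∀ (I : Finset ℕ) (n k : ℕ), ∃ O : ℕ → Set M, (∀ N, IsOpen (O N)) ∧
      (∀ N, exact Gt I.card ⊆ O N) ∧
      ∀ᵐ p ∂m, dist x₀ p < k → ⨅ N, Ps Gt W (muI m w x₀ k I) I n (O N) p = 0 := by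
    intro I n k
    obtain ⟨A, hA⟩ := sb_static hE hP hSB x₀ k
    haveI := muI_finite hS hwm hw2 x₀ k I
    exact static_avoid (fun i j => (hP i j).1) hW.meas (psd_static hE hP hW) x₀ k
      (muI m w x₀ k I) (withDensity_absolutelyContinuous _ _) hA I n
  choose O hO1 hO2 hO3 using hstat
  have hall : ∀ᵐ p ∂m, ∀ (I : Finset ℕ) (n k : ℕ), dist x₀ p < k →
      ⨅ N, Ps Gt W (muI m w x₀ k I) I n (O I n k N) p = 0 :=
    ae_all_iff.2 fun I => ae_all_iff.2 fun n => ae_all_iff.2 fun k => hO3 I n k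
  filter_upwards [hall] with p hp s₀ C₀ Y hF
  have hSV' := hSV p s₀ C₀ Y hF
  filter_upwards [flow_avoid hS hE hP hF hSV' hW hR hwm hw1 hO1 hO2 hp,
    curve_gram hS hE hP hF hSV', rank_static hE hP hR x₀, hF.geod] with x h1 h2 h3 h4
  by_cases hx : dist p x ^ 2 < 2 * C₀ * (1 + s₀) ∧ 0 < dist p x
  · obtain ⟨k, hk⟩ := h1 hx.1 hx.2
    exact ⟨k, fun t ht => rankEq_of ((h2 hx.1).2.psd t ht).of_ext (hk t ht).1 (hk t ht).2⟩
  · have hspd : spd p s₀ C₀ x = 0 := by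
      unfold spd
      split_ifs with h
      · have h0 : dist p x = 0 := le_antisymm (not_lt.1 fun h' => hx ⟨h, h'⟩) dist_nonneg
        rw [h0, zero_div]
      · rfl
    obtain ⟨k, hk⟩ := h3
    refine ⟨k, fun t ht => ?_⟩
    have h5 := h4 1 ⟨one_pos, le_rfl⟩ t (Ioo_subset_Ioc_self ht)
    rw [hspd, zero_mul, dist_eq_zero, hF.one] at h5
    rw [← h5]
    exact hk

end Vale.Agent.P233.H450
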