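import Mathlib.Analysis.InnerProductSpace.GramMatrix
import Mathlib.Analysis.InnerProductSpace.PiL2
import Mathlib.Analysis.Matrix.Order
import Mathlib.Topology.Instances.Matrix
import Mathlib.MeasureTheory.Integral.Lebesgue.Basic
import Mathlib.MeasureTheory.Measure.Lebesgue.Basic

/-! # E3 (avoidance), linear algebra of Gram data -/

open Matrix Set Filter Topology MeasureTheory
open scoped ENNReal RealInnerProductSpace MatrixOrder

namespace Vale.Agent.P233.H450

variable {ι : Type*}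

/-- principal submatrix on `I` -/
def sub (A : ι → ι → ℝ) (I : Finset ι) : Matrix I I ℝ := Matrix.of fun i j => A i j

@[simp] theorem sub_apply (A : ι → ι → ℝ) (I : Finset ι) (i j : I) : sub A I i j = A i j := rfl

/-- positive semidefinite kernel -/
def PSD {κ : Type*} (B : κ → κ → ℝ) : Prop :=
  (∀ i j, B i j = B j i) ∧ ∀ (J : Finset κ) (c : κ → ℝ), 0 ≤ ∑ i ∈ J, ∑ j ∈ J, c i * c j * B i j

/-- Gram data `A` bordered by `q`, with corner `L` -/
def ext (A : ι → ι → ℝ) (q : ι → ℝ) (L : ℝ) : Option ι → Option ι → ℝ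
  | some i, some j => A i j
  | some i, none => q i
  | none, some j => q j
  | none, none => L

/-- `|v - ∑ c_i ∇f_i|²` -/
def Q (A : ι → ι → ℝ) (q : ι → ℝ) (L : ℝ) (I : Finset ι) (c : ι → ℝ) : ℝ :=
  ∑ i ∈ I, ∑ j ∈ I, c i * c j * A i j - 2 * ∑ i ∈ I, c i * q i + L

section vec

theorem PSD.exists_vec {κ : Type*} {B : κ → κ → ℝ} (hB : PSD B) (J : Finset κ) :
    ∃ x : κ → EuclideanSpace ℝ J, ∀ i ∈ J, ∀ j ∈ J, ⟪x i, x j⟫ = B i j := by
  classical
  have hpos : (sub B J).PosSemidef := by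
    refine Matrix.PosSemidef.of_dotProduct_mulVec_nonneg ?_ ?_
    · ext i j
      simp [hB.1 j i]
    · intro c
      have := hB.2 J (fun i => if h : i ∈ J then c ⟨i, h⟩ else 0)
      have e : star c ⬝ᵥ (sub B J) *ᵥ c = ∑ i ∈ J, ∑ j ∈ J,
          (fun i => if h : i ∈ J then c ⟨i, h⟩ else 0) i *
          (fun i => if h : i ∈ J then c ⟨i, h⟩ else 0) j * B i j := by
        simp only [dotProduct, mulVec, Pi.star_apply, star_trivial, sub_apply]
        rw [← Finset.sum_coe_sort J]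
        refine Finset.sum_congr rfl fun i _ => ?_
        rw [← Finset.sum_coe_sort J, Finset.mul_sum]
        refine Finset.sum_congr rfl fun j _ => ?_
        simp only [Finset.coe_mem, dite_true, Subtype.coe_eta]
        ring
      rw [e]; exact this
  obtain ⟨C, hC⟩ := CStarAlgebra.nonneg_iff_eq_star_mul_self.mp hpos.nonneg
  refine ⟨fun i => if h : i ∈ J then WithLp.toLp 2 (fun k => C k ⟨i, h⟩) else 0, ?_⟩
  intro i hi j hj
  simp only [hi, hj, dite_true]
  have := congrFun (congrFun hC ⟨i, hi⟩) ⟨j, hj⟩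
  rw [sub_apply] at this
  rw [this]
  simp [Matrix.mul_apply, Matrix.star_apply, PiLp.inner_apply, mul_comm]

variable {E : Type*} [NormedAddCommGroup E] [InnerProductSpace ℝ E]

/-- the vectors `x i` (`i ∈ J`) realise `A` on `J` -/
def Real (A : ι → ι → ℝ) (J : Finset ι) (x : ι → E) : Prop := ∀ i ∈ J, ∀ j ∈ J, ⟪x i, x j⟫ = A i j

theorem Real.sub_eq {A : ι → ι → ℝ} {J I : Finset ι} {x : ι → E} (h : Real A J x) (hI : I ⊆ J) :
    sub A I = gram ℝ (fun i : I => x i) := by
  ext i j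
  rw [sub_apply, gram_apply, h i (hI i.2) j (hI j.2)]

theorem Real.det_pos_iff [DecidableEq ι] {A : ι → ι → ℝ} {J I : Finset ι} {x : ι → E}
    (h : Real A J x) (hI : I ⊆ J) :
    0 < (sub A I).det ↔ LinearIndependent ℝ (fun i : I => x i) := by
  rw [h.sub_eq hI, ← det_gram_ne_zero_iff_linearIndependent]
  constructor
  · exact fun h => h.ne'
  · intro h0
    exact lt_of_le_of_ne (posSemidef_gram ℝ _).det_nonneg h0.symm

end vec

theorem PSD.exists_real {A : ι → ι → ℝ} {q : ι → ℝ} {L : ℝ} (h : PSD (ext A q L)) (J : Finset ι) :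
    ∃ (n : Type) (_ : Fintype n) (x : ι → EuclideanSpace ℝ n) (v : EuclideanSpace ℝ n),
      Real A J x ∧ (∀ i ∈ J, ⟪v, x i⟫ = q i) ∧ ⟪v, v⟫ = L := by
  classical
  set J' : Finset (Option ι) := insert none (J.map ⟨some, Option.some_injective ι⟩)
  obtain ⟨x, hx⟩ := h.exists_vec J'
  -- transport to `Fin`
  let e : J' ≃ Fin (Fintype.card J') := Fintype.equivFin _
  let T : EuclideanSpace ℝ J' ≃ₗᵢ[ℝ] EuclideanSpace ℝ (Fin (Fintype.card J')) :=
    LinearIsometryEquiv.piLpCongrLeft 2 ℝ ℝ e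
  refine ⟨Fin (Fintype.card J'), inferInstance, fun i => T (x (some i)), T (x none), ?_, ?_, ?_⟩
  · intro i hi j hj
    rw [T.inner_map_map, hx _ (by simp [J', hi]) _ (by simp [J', hj])]; rfl
  · intro i hi
    rw [T.inner_map_map, hx _ (by simp [J']) _ (by simp [J', hi])]; rfl
  · rw [T.inner_map_map, hx _ (by simp [J']) _ (by simp [J'])]; rfl

section

variable [DecidableEq ι]

/-- the rank of the Gram data is at least `k` -/
def RankGE (A : ι → ι → ℝ) (k : ℕ) : Prop := ∃ I : Finset ι, I.card = k ∧ 0 < (sub A I).det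

/-- the coefficients of the projection of `v` on the span of `∇f_i`, `i ∈ I` -/
noncomputable def proj (A : ι → ι → ℝ) (q : ι → ℝ) (I : Finset ι) : I → ℝ :=
  (sub A I)⁻¹ *ᵥ fun i : I => q i

/-- `dist(v, span {∇f_i, i ∈ I})²` -/
noncomputable def alpha2 (A : ι → ι → ℝ) (q : ι → ℝ) (L : ℝ) (I : Finset ι) : ℝ :=
  L - (fun i : I => q i) ⬝ᵥ proj A q I

/-- coefficients extended by zero -/
def exz (I : Finset ι) (c : I → ℝ) : ι → ℝ := fun i => if h : i ∈ I then c ⟨i, h⟩ else 0

theorem exz_apply (I : Finset ι) (c : I → ℝ) (i : I) : exz I c i = c i := by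
  simp [exz]

variable {E : Type*} [NormedAddCommGroup E] [InnerProductSpace ℝ E]

omit [DecidableEq ι] in
theorem Q_eq_norm {A : ι → ι → ℝ} {q : ι → ℝ} {L : ℝ} {J I : Finset ι} {x : ι → E} {v : E}
    (h : Real A J x) (hq : ∀ i ∈ J, ⟪v, x i⟫ = q i) (hL : ⟪v, v⟫ = L) (hI : I ⊆ J) (c : ι → ℝ) :
    Q A q L I c = ‖v - ∑ i ∈ I, c i • x i‖ ^ 2 := by
  rw [← real_inner_self_eq_norm_sq, inner_sub_left, inner_sub_right, inner_sub_right, hL,
    sum_inner, sum_inner, inner_sum]
  unfold Q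
  have e1 : ∑ i ∈ I, ⟪v, c i • x i⟫ = ∑ i ∈ I, c i * q i :=
    Finset.sum_congr rfl fun i hi => by rw [inner_smul_right, hq i (hI hi)]
  have e2 : ∑ i ∈ I, ⟪c i • x i, v⟫ = ∑ i ∈ I, c i * q i :=
    Finset.sum_congr rfl fun i hi => by
      rw [real_inner_smul_left, real_inner_comm, hq i (hI hi)]
  have e3 : ∑ i ∈ I, ⟪c i • x i, ∑ j ∈ I, c j • x j⟫ = ∑ i ∈ I, ∑ j ∈ I, c i * c j * A i j := by
    refine Finset.sum_congr rfl fun i hi => ?_
    rw [inner_sum]
    refine Finset.sum_congr rfl fun j hj => ?_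
    rw [real_inner_smul_left, inner_smul_right, h i (hI hi) j (hI hj)]; ring
  rw [e1, e2, e3]; ring

/-- `v - ∑ proj_i x_i` is orthogonal to the span, and its square norm is `alpha2`. -/
theorem proj_spec {A : ι → ι → ℝ} {q : ι → ℝ} {L : ℝ} {J I : Finset ι} {x : ι → E} {v : E}
    (h : Real A J x) (hq : ∀ i ∈ J, ⟪v, x i⟫ = q i) (hL : ⟪v, v⟫ = L) (hI : I ⊆ J)
    (hdet : 0 < (sub A I).det) :
    (∀ i ∈ I, ⟪v - ∑ j : I, proj A q I j • x j, x i⟫ = 0) ∧
      ‖v - ∑ j : I, proj A q I j • x j‖ ^ 2 = alpha2 A q L I := by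
  have hu : IsUnit (sub A I).det := isUnit_iff_ne_zero.2 hdet.ne'
  have h1 : sub A I *ᵥ proj A q I = fun i : I => q i := by
    rw [proj, Matrix.mulVec_mulVec, Matrix.mul_nonsing_inv _ hu, Matrix.one_mulVec]
  have horth : ∀ i ∈ I, ⟪v - ∑ j : I, proj A q I j • x j, x i⟫ = 0 := by
    intro i hi
    rw [inner_sub_left, hq i (hI hi), sum_inner]
    have := congrFun h1 ⟨i, hi⟩
    simp only [mulVec, dotProduct, sub_apply] at this
    rw [← this, sub_eq_zero]
    refine Finset.sum_congr rfl fun j _ => ?_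
    rw [real_inner_smul_left, h j (hI j.2) i (hI hi), mul_comm, ← h i (hI hi) j (hI j.2),
      ← h j (hI j.2) i (hI hi), real_inner_comm]
  refine ⟨horth, ?_⟩
  rw [← real_inner_self_eq_norm_sq, inner_sub_right]
  have e : ⟪v - ∑ j : I, proj A q I j • x j, ∑ j : I, proj A q I j • x j⟫ = 0 := by
    rw [inner_sum]
    refine Finset.sum_eq_zero fun j _ => ?_
    rw [inner_smul_right, horth j j.2, mul_zero]
  rw [e, sub_zero, inner_sub_left, hL, sum_inner]
  unfold alpha2
  congr 1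
  simp only [dotProduct]
  refine Finset.sum_congr rfl fun j _ => ?_
  rw [real_inner_smul_left, real_inner_comm, hq j (hI j.2), mul_comm]

theorem alpha2_nonneg {A : ι → ι → ℝ} {q : ι → ℝ} {L : ℝ} (hA : PSD (ext A q L)) {I : Finset ι}
    (hdet : 0 < (sub A I).det) : 0 ≤ alpha2 A q L I := by
  obtain ⟨n, _, x, v, h, hq, hL⟩ := hA.exists_real I
  rw [← (proj_spec h hq hL subset_rfl hdet).2]; positivity

/-- the minimum of `Q` is `alpha2`, attained at `proj` -/
theorem Q_proj {A : ι → ι → ℝ} {q : ι → ℝ} {L : ℝ} (hA : PSD (ext A q L)) {I : Finset ι}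
    (hdet : 0 < (sub A I).det) : Q A q L I (exz I (proj A q I)) = alpha2 A q L I := by
  obtain ⟨n, _, x, v, h, hq, hL⟩ := hA.exists_real I
  rw [← (proj_spec h hq hL subset_rfl hdet).2, Q_eq_norm h hq hL subset_rfl]
  congr 3
  rw [← Finset.sum_coe_sort I]
  exact Finset.sum_congr rfl fun i _ => by rw [exz_apply]

omit [DecidableEq ι] in
theorem Q_nonneg {A : ι → ι → ℝ} {q : ι → ℝ} {L : ℝ} (hA : PSD (ext A q L)) (I : Finset ι)
    (c : ι → ℝ) : 0 ≤ Q A q L I c := by
  obtain ⟨n, _, x, v, h, hq, hL⟩ := hA.exists_real I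
  rw [Q_eq_norm h hq hL subset_rfl]; positivity

/-- general lower bound: if all `x_k`, `k ∈ J`, are in the span of `x_i`, `i ∈ I ⊆ J` -/
theorem alpha2_le_of_span {A : ι → ι → ℝ} {q : ι → ℝ} {L : ℝ} {J I : Finset ι} {x : ι → E} {v : E}
    (h : Real A J x) (hq : ∀ i ∈ J, ⟪v, x i⟫ = q i) (hL : ⟪v, v⟫ = L) (hI : I ⊆ J)
    (hdet : 0 < (sub A I).det)
    (hsp : ∀ k ∈ J, x k ∈ Submodule.span ℝ (x '' (I : Set ι))) {K : Finset ι} (hK : K ⊆ J)
    (c : ι → ℝ) : alpha2 A q L I ≤ Q A q L K c := by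
  obtain ⟨h1, h2⟩ := proj_spec h hq hL hI hdet
  rw [Q_eq_norm h hq hL hK, ← h2]
  set p := ∑ j : I, proj A q I j • x j
  set s := ∑ i ∈ K, c i • x i
  have hps : p - s ∈ Submodule.span ℝ (x '' (I : Set ι)) := by
    refine Submodule.sub_mem _ ?_ ?_
    · exact Submodule.sum_mem _ fun j _ => Submodule.smul_mem _ _
        (Submodule.subset_span ⟨j, j.2, rfl⟩)
    · exact Submodule.sum_mem _ fun i hi => Submodule.smul_mem _ _ (hsp i (hK hi))
  have horth : ⟪v - p, p - s⟫ = 0 := by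
    refine Submodule.span_induction (p := fun y _ => ⟪v - p, y⟫ = 0) ?_ ?_ ?_ ?_ hps
    · rintro y ⟨i, hi, rfl⟩; exact h1 i hi
    · simp
    · intro a b _ _ ha hb; rw [inner_add_right, ha, hb, add_zero]
    · intro a b _ hb; rw [inner_smul_right, hb, mul_zero]
  have e : v - s = (v - p) + (p - s) := by abel
  rw [e, norm_add_sq_real, horth]
  nlinarith [sq_nonneg ‖p - s‖]

theorem alpha2_le_Q {A : ι → ι → ℝ} {q : ι → ℝ} {L : ℝ} (hA : PSD (ext A q L)) {I : Finset ι}
    (hdet : 0 < (sub A I).det) (c : ι → ℝ) : alpha2 A q L I ≤ Q A q L I c := by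
  obtain ⟨n, _, x, v, h, hq, hL⟩ := hA.exists_real I
  exact alpha2_le_of_span h hq hL subset_rfl hdet
    (fun k hk => Submodule.subset_span ⟨k, hk, rfl⟩) subset_rfl c

/-- a vector outside the span enlarges a linearly independent family -/
theorem linInd_insert {I : Finset ι} {x : ι → E} {k : ι}
    (hli : LinearIndependent ℝ (fun i : I => x i))
    (hk : x k ∉ Submodule.span ℝ (x '' (I : Set ι))) :
    k ∉ I ∧ LinearIndependent ℝ (fun i : (insert k I : Finset ι) => x i) := by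
  have hkI : k ∉ I := fun h => hk (Submodule.subset_span ⟨k, h, rfl⟩)
  refine ⟨hkI, ?_⟩
  have h1 : LinearIndepOn ℝ x (I : Set ι) := hli
  have h2 : LinearIndepOn ℝ x (insert k (I : Set ι)) := h1.insert hk
  have h3 : LinearIndepOn ℝ x ((insert k I : Finset ι) : Set ι) := by
    rw [Finset.coe_insert]; exact h2
  exact h3

/-- if the rank is not larger than `|I|`, everything is in the span of `I` -/
theorem mem_span_of_not_rankGE {A : ι → ι → ℝ} {J I : Finset ι} {x : ι → E} (h : Real A J x)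
    (hI : I ⊆ J) (hdet : 0 < (sub A I).det) (hr : ¬ RankGE A (I.card + 1)) :
    ∀ k ∈ J, x k ∈ Submodule.span ℝ (x '' (I : Set ι)) := by
  intro k hk
  by_contra hk'
  obtain ⟨hkI, hli⟩ := linInd_insert ((h.det_pos_iff hI).1 hdet) hk'
  have hsub : insert k I ⊆ J := Finset.insert_subset hk hI
  exact hr ⟨insert k I, Finset.card_insert_of_notMem hkI, (h.det_pos_iff hsub).2 hli⟩

/-- (L3) at a point where the rank is `|I|`, `alpha2` is the infimum over all test gradients -/
theorem alpha2_le_of_rank {A : ι → ι → ℝ} {q : ι → ℝ} {L : ℝ} (hA : PSD (ext A q L))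
    {I : Finset ι} (hdet : 0 < (sub A I).det) (hr : ¬ RankGE A (I.card + 1)) (K : Finset ι)
    (c : ι → ℝ) : alpha2 A q L I ≤ Q A q L K c := by
  obtain ⟨n, _, x, v, h, hq, hL⟩ := hA.exists_real (I ∪ K)
  exact alpha2_le_of_span h hq hL Finset.subset_union_left hdet
    (mem_span_of_not_rankGE h Finset.subset_union_left hdet hr) Finset.subset_union_right c

omit [DecidableEq ι] in
theorem PSD.of_ext {A : ι → ι → ℝ} {q : ι → ℝ} {L : ℝ} (h : PSD (ext A q L)) : PSD A := by
  classical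
  refine ⟨fun i j => h.1 (some i) (some j), fun J c => ?_⟩
  have := h.2 (J.map ⟨some, Option.some_injective ι⟩) (fun o => o.elim 0 c)
  simpa [Finset.sum_map, ext] using this

omit [DecidableEq ι] in
theorem PSD.ext_zero {A : ι → ι → ℝ} (h : PSD A) : PSD (ext A 0 0) := by
  classical
  refine ⟨?_, ?_⟩
  · rintro (_ | i) (_ | j)
    · rfl
    · rfl
    · rfl
    · exact h.1 i j
  · intro J c
    have := h.2 (J.eraseNone) (fun i => c (some i))
    refine this.trans_eq ?_
    have e : ∀ f : Option ι → ℝ, f none = 0 → ∑ o ∈ J, f o = ∑ i ∈ J.eraseNone, f (some i) := by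
      intro f hf
      have : ∑ i ∈ J.eraseNone, f (some i)
          = ∑ o ∈ (J.eraseNone).map ⟨some, Option.some_injective ι⟩, f o := by
        rw [Finset.sum_map]; rfl
      rw [this]
      symm
      refine Finset.sum_subset ?_ ?_
      · intro o ho
        simp only [Finset.mem_map, Finset.mem_eraseNone, Function.Embedding.coeFn_mk] at ho
        obtain ⟨i, hi, rfl⟩ := ho
        exact hi
      · intro o ho ho'
        rcases o with _ | i
        · exact hf
        · exfalso; apply ho'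
          simp only [Finset.mem_map, Finset.mem_eraseNone, Function.Embedding.coeFn_mk]
          exact ⟨i, ho, rfl⟩
    rw [e (fun o => ∑ j ∈ J, c o * c j * ext A 0 0 o j)]
    · refine Finset.sum_congr rfl fun i _ => ?_
      rw [e (fun o => c (some i) * c o * ext A 0 0 (some i) o)]
      · rfl
      · simp [ext]
    · refine Finset.sum_eq_zero fun j _ => ?_
      rcases j with _ | j <;> simp [ext]

/-- (L5) the rank condition is monotone -/
theorem RankGE.mono {A : ι → ι → ℝ} (hA : PSD A) {k : ℕ} (h : RankGE A (k + 1)) : RankGE A k := by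
  obtain ⟨K, hK, hdet⟩ := h
  obtain ⟨n, _, x, v, hx, -, -⟩ := hA.ext_zero.exists_real K
  have hne : K.Nonempty := by rw [← Finset.card_pos]; omega
  obtain ⟨a, ha⟩ := hne
  refine ⟨K.erase a, by rw [Finset.card_erase_of_mem ha]; omega, ?_⟩
  rw [hx.det_pos_iff (Finset.erase_subset a K)]
  have h1 : LinearIndepOn ℝ x (K : Set ι) := (hx.det_pos_iff subset_rfl).1 hdet
  exact h1.mono (by simp)

theorem RankGE.mono_le {A : ι → ι → ℝ} (hA : PSD A) {k l : ℕ} (hkl : k ≤ l) (h : RankGE A l) :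
    RankGE A k := by
  induction l, hkl using Nat.le_induction with
  | base => exact h
  | succ n _ ih => exact ih (h.mono hA)

/-- (L4) if the rank is larger than `|I|` there is a unit combination orthogonal to the span of
`I`; it bounds `alpha2` from below, whatever `q` is. -/
theorem exists_unit_orth {A : ι → ι → ℝ} (hA : PSD A) {I : Finset ι}
    (hdet : 0 < (sub A I).det) (hr : RankGE A (I.card + 1)) :
    ∃ (K : Finset ι) (c : ι → ℝ), ∑ i ∈ K, ∑ j ∈ K, c i * c j * A i j = 1 ∧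
      ∀ (q : ι → ℝ) (L : ℝ), PSD (ext A q L) → (∑ i ∈ K, c i * q i) ^ 2 ≤ alpha2 A q L I := by
  obtain ⟨K, hK, hKdet⟩ := hr
  obtain ⟨n, _, x, v, hx, -, -⟩ := hA.ext_zero.exists_real (I ∪ K)
  have hIsub : I ⊆ I ∪ K := Finset.subset_union_left
  have hKsub : K ⊆ I ∪ K := Finset.subset_union_right
  have hIli := (hx.det_pos_iff hIsub).1 hdet
  have hKli := (hx.det_pos_iff hKsub).1 hKdet
  -- some `x k` is outside the span of `I`
  obtain ⟨k, hkK, hk⟩ : ∃ k ∈ K, x k ∉ Submodule.span ℝ (x '' (I : Set ι)) := by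
    by_contra hcon
    push Not at hcon
    have h1 : Submodule.span ℝ (x '' (K : Set ι)) ≤ Submodule.span ℝ (x '' (I : Set ι)) := by
      rw [Submodule.span_le]; rintro _ ⟨k, hk, rfl⟩; exact hcon k hk
    have h2 : Module.finrank ℝ (Submodule.span ℝ (x '' (K : Set ι))) = K.card := by
      have := finrank_span_eq_card hKli
      rw [Fintype.card_coe] at this
      rw [← this, image_eq_range]
      rfl
    have h3 : Module.finrank ℝ (Submodule.span ℝ (x '' (I : Set ι))) = I.card := by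
      have := finrank_span_eq_card hIli
      rw [Fintype.card_coe] at this
      rw [← this, image_eq_range]
      rfl
    have := Submodule.finrank_mono h1
    omega
  have hkJ : k ∈ I ∪ K := hKsub hkK
  -- projection of `x k`
  set qk : ι → ℝ := fun i => A k i
  have hqk : ∀ i ∈ I ∪ K, ⟪x k, x i⟫ = qk i := fun i hi => hx k hkJ i hi
  have hLk : ⟪x k, x k⟫ = A k k := hx k hkJ k hkJ
  obtain ⟨ho, -⟩ := proj_spec hx hqk hLk hIsub hdet
  set w := x k - ∑ j : I, proj A qk I j • x j with hw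
  have hw0 : w ≠ 0 := by
    intro h0
    apply hk
    rw [sub_eq_zero] at h0
    rw [h0]
    exact Submodule.sum_mem _ fun j _ => Submodule.smul_mem _ _
      (Submodule.subset_span ⟨j, j.2, rfl⟩)
  have hkI : k ∉ I := fun h => hk (Submodule.subset_span ⟨k, h, rfl⟩)
  -- coefficients
  set c₀ : ι → ℝ := fun i => if i = k then 1 else - exz I (proj A qk I) i with hc₀
  have hsumc : ∀ y : ι → EuclideanSpace ℝ n, ∑ i ∈ insert k I, c₀ i • y i
      = y k - ∑ j : I, proj A qk I j • y j := by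
    intro y
    rw [Finset.sum_insert hkI]
    have e1 : c₀ k = 1 := by simp [hc₀]
    rw [e1, one_smul, sub_eq_add_neg, ← Finset.sum_neg_distrib, ← Finset.sum_coe_sort I]
    congr 1
    refine Finset.sum_congr rfl fun i _ => ?_
    have : (i : ι) ≠ k := fun h => hkI (h ▸ i.2)
    simp only [hc₀, this, if_false, exz_apply, neg_smul]
  have hsub : insert k I ⊆ I ∪ K := Finset.insert_subset hkJ hIsub
  have hnorm : ∀ c : ι → ℝ, ∑ i ∈ insert k I, ∑ j ∈ insert k I, c i * c j * A i j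
      = ‖∑ i ∈ insert k I, c i • x i‖ ^ 2 := by
    intro c
    rw [← real_inner_self_eq_norm_sq, sum_inner]
    refine Finset.sum_congr rfl fun i hi => ?_
    rw [inner_sum]
    refine Finset.sum_congr rfl fun j hj => ?_
    rw [real_inner_smul_left, inner_smul_right, hx i (hsub hi) j (hsub hj)]; ring
  have hwn : 0 < ‖w‖ := norm_pos_iff.2 hw0
  refine ⟨insert k I, fun i => ‖w‖⁻¹ * c₀ i, ?_, ?_⟩
  · rw [hnorm]
    have : ∑ i ∈ insert k I, (‖w‖⁻¹ * c₀ i) • x i = ‖w‖⁻¹ • w := by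
      rw [hw, ← hsumc x, Finset.smul_sum]
      exact Finset.sum_congr rfl fun i _ => by rw [mul_smul]
    rw [this, norm_smul, norm_inv, norm_norm, inv_mul_cancel₀ hwn.ne', one_pow]
  · intro q L hqL
    -- new realisation including `q`
    obtain ⟨n', _, y, u, hy, hqy, hLy⟩ := hqL.exists_real (I ∪ K)
    obtain ⟨ho', hα⟩ := proj_spec hy hqy hLy hIsub hdet
    have hqk' : ∀ i ∈ I ∪ K, ⟪y k, y i⟫ = qk i := fun i hi => hy k hkJ i hi
    have hLk' : ⟪y k, y k⟫ = A k k := hy k hkJ k hkJ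
    obtain ⟨ho2, hα2⟩ := proj_spec hy hqk' hLk' hIsub hdet
    obtain ⟨-, hα1⟩ := proj_spec hx hqk hLk hIsub hdet
    have hww : ‖y k - ∑ j : I, proj A qk I j • y j‖ ^ 2 = ‖w‖ ^ 2 := by rw [hα2, hw, hα1]
    set w' := y k - ∑ j : I, proj A qk I j • y j with hw'
    have hsum' : ∑ i ∈ insert k I, (‖w‖⁻¹ * c₀ i) * q i = ‖w‖⁻¹ * ⟪u, w'⟫ := by
      have e1 : w' = ∑ i ∈ insert k I, c₀ i • y i := by
        rw [Finset.sum_insert hkI]
        have e1 : c₀ k = 1 := by simp [hc₀]
        rw [e1, one_smul, hw', sub_eq_add_neg, ← Finset.sum_neg_distrib, ← Finset.sum_coe_sort I]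
        congr 1
        refine Finset.sum_congr rfl fun i _ => ?_
        have : (i : ι) ≠ k := fun h => hkI (h ▸ i.2)
        simp only [hc₀, this, if_false, exz_apply, neg_smul]
      rw [e1, inner_sum, Finset.mul_sum]
      refine Finset.sum_congr rfl fun i hi => ?_
      rw [inner_smul_right, hqy i (hsub hi)]; ring
    rw [hsum', ← hα]
    -- `⟪u, w'⟫ = ⟪u - P u, w'⟫`
    have e2 : ⟪u, w'⟫ = ⟪u - ∑ j : I, proj A q I j • y j, w'⟫ := by
      rw [inner_sub_left, sum_inner]
      have : ∑ j : I, ⟪proj A q I j • y j, w'⟫ = 0 := by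
        refine Finset.sum_eq_zero fun j _ => ?_
        rw [real_inner_smul_left, real_inner_comm, ho2 j j.2, mul_zero]
      rw [this, sub_zero]
    rw [e2, mul_pow]
    have h5 := abs_real_inner_le_norm (u - ∑ j : I, proj A q I j • y j) w'
    have h6 : ⟪u - ∑ j : I, proj A q I j • y j, w'⟫ ^ 2
        ≤ ‖u - ∑ j : I, proj A q I j • y j‖ ^ 2 * ‖w'‖ ^ 2 := by
      rw [← sq_abs, ← mul_pow]
      exact pow_le_pow_left₀ (abs_nonneg _) h5 2
    rw [hww] at h6
    calc ‖w‖⁻¹ ^ 2 * ⟪u - ∑ j : I, proj A q I j • y j, w'⟫ ^ 2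
        ≤ ‖w‖⁻¹ ^ 2 * (‖u - ∑ j : I, proj A q I j • y j‖ ^ 2 * ‖w‖ ^ 2) :=
          mul_le_mul_of_nonneg_left h6 (by positivity)
      _ = ‖u - ∑ j : I, proj A q I j • y j‖ ^ 2 := by
          field_simp

end

end Vale.Agent.P233.H450
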