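import Vale.Agent.P233.H450.Avoid1
import Mathlib.MeasureTheory.Integral.Lebesgue.Markov
import Mathlib.MeasureTheory.Measure.Lebesgue.Basic
import Mathlib.Topology.Instances.Matrix

/-! # E3 (avoidance), one curve -/

open Matrix Set Filter Topology MeasureTheory
open scoped ENNReal

namespace Vale.Agent.P233.H450

variable {ι : Type*} [DecidableEq ι]

theorem proj_eq (A : ι → ι → ℝ) (q : ι → ℝ) (I : Finset ι) :
    proj A q I = (sub A I).det⁻¹ • (adjugate (sub A I) *ᵥ fun i : I => q i) := by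
  rw [proj, Matrix.inv_def, Ring.inverse_eq_inv', Matrix.smul_mulVec]

/-- uniform bound of the coefficients of the projection -/
theorem exists_Cst (Λ : ι → ι → ℝ) (Λ' : ι → ℝ) (I : Finset ι) {δ : ℝ} (hδ : 0 < δ) :
    ∃ C : ℝ, 0 ≤ C ∧ ∀ (A : ι → ι → ℝ) (q : ι → ℝ), (∀ i j, |A i j| ≤ Λ i j) →
      (∀ i, |q i| ≤ Λ' i) → δ ≤ (sub A I).det → ∀ i : I, |proj A q I i| ≤ C := by
  set S : Set ((I → I → ℝ) × (I → ℝ)) :=
    (Set.pi univ fun i : I => Set.pi univ fun j : I => Icc (-Λ i j) (Λ i j)) ×ˢ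
      (Set.pi univ fun i : I => Icc (-Λ' i) (Λ' i)) with hS
  have hcomp : IsCompact S := (isCompact_univ_pi fun i => isCompact_univ_pi fun j =>
    isCompact_Icc).prod (isCompact_univ_pi fun i => isCompact_Icc)
  have hcont : Continuous fun p : (I → I → ℝ) × (I → ℝ) =>
      adjugate (Matrix.of p.1) *ᵥ p.2 := by
    have h1 : Continuous fun p : (I → I → ℝ) × (I → ℝ) => (Matrix.of p.1 : Matrix I I ℝ) :=
      continuous_matrix fun i j => by
        exact (continuous_apply j).comp ((continuous_apply i).comp continuous_fst)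
    exact h1.matrix_adjugate.matrix_mulVec continuous_snd
  obtain ⟨C, hC⟩ := hcomp.exists_bound_of_continuousOn hcont.continuousOn
  refine ⟨δ⁻¹ * max C 0, by positivity, fun A q hA hq hdet i => ?_⟩
  have hmem : ((fun i j => A i j : I → I → ℝ), (fun i => q i : I → ℝ)) ∈ S := by
    refine ⟨fun i _ j _ => ?_, fun i _ => ?_⟩
    · exact abs_le.1 (hA i j)
    · exact abs_le.1 (hq i)
  have h1 := hC _ hmem
  rw [proj_eq]
  have h2 : |(adjugate (sub A I) *ᵥ fun i : I => q i) i| ≤ max C 0 := by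
    have := norm_le_pi_norm (adjugate (sub A I) *ᵥ fun i : I => q i) i
    rw [Real.norm_eq_abs] at this
    exact this.trans (h1.trans (le_max_left _ _))
  have h3 : 0 < (sub A I).det := hδ.trans_le hdet
  rw [Pi.smul_apply, smul_eq_mul, abs_mul, abs_of_pos (inv_pos.2 h3)]
  exact mul_le_mul (inv_anti₀ hδ hdet) h2 (abs_nonneg _) (by positivity)

section coarea

/-- the co-area step, right side of `a` -/
theorem coarea_right {α : ℝ → ℝ} {g : ℝ → ℝ≥0∞} {a b e : ℝ}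
    (hα : ContinuousOn α (Icc a b)) (h0 : α a = 0)
    (hvar : ∀ t ∈ Icc a b, ENNReal.ofReal (α t - α a) ≤ ∫⁻ r in Ioc a t, g r)
    (he : 0 < e) (heb : e ≤ b - a) :
    ENNReal.ofReal e ≤ ∫⁻ r in {r | r ∈ Ioo a b ∧ α r < e}, (1 + g r) := by
  by_cases hex : ∃ r ∈ Icc a b, e ≤ α r
  · set S := {r | r ∈ Icc a b ∧ e ≤ α r} with hS
    have hne : S.Nonempty := by obtain ⟨r, h1, h2⟩ := hex; exact ⟨r, h1, h2⟩
    have hcl : IsClosed S := by
      have := hα.preimage_isClosed_of_isClosed isClosed_Icc (isClosed_Ici (a := e))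
      exact this
    have hbdd : BddBelow S := ⟨a, fun r hr => hr.1.1⟩
    have hτ : sInf S ∈ S := hcl.csInf_mem hne hbdd
    set τ := sInf S
    have haτ : a < τ := by
      refine lt_of_le_of_ne hτ.1.1 fun h => ?_
      have := hτ.2
      rw [← h, h0] at this
      exact absurd this (not_le.2 he)
    have hlt : ∀ r, r ∈ Ioo a τ → r ∈ Ioo a b ∧ α r < e := by
      intro r hr
      have hrb : r ∈ Icc a b := ⟨hr.1.le, hr.2.le.trans hτ.1.2⟩
      refine ⟨⟨hr.1, hr.2.trans_le hτ.1.2⟩, ?_⟩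
      by_contra hcon
      exact absurd (csInf_le hbdd ⟨hrb, not_lt.1 hcon⟩) (not_le.2 hr.2)
    calc ENNReal.ofReal e ≤ ENNReal.ofReal (α τ - α a) :=
          ENNReal.ofReal_le_ofReal (by rw [h0, sub_zero]; exact hτ.2)
      _ ≤ ∫⁻ r in Ioc a τ, g r := hvar τ hτ.1
      _ = ∫⁻ r in Ioo a τ, g r := by
          rw [restrict_Ioo_eq_restrict_Ioc]
      _ ≤ ∫⁻ r in {r | r ∈ Ioo a b ∧ α r < e}, g r := lintegral_mono_set fun r hr => hlt r hr
      _ ≤ _ := lintegral_mono fun r => le_add_self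
  · push Not at hex
    have : {r | r ∈ Ioo a b ∧ α r < e} = Ioo a b := by
      ext r
      exact ⟨fun h => h.1, fun h => ⟨h, hex r (Ioo_subset_Icc_self h)⟩⟩
    rw [this]
    calc ENNReal.ofReal e ≤ ENNReal.ofReal (b - a) := ENNReal.ofReal_le_ofReal heb
      _ = ∫⁻ _ in Ioo a b, (1 : ℝ≥0∞) := by rw [setLIntegral_one, Real.volume_Ioo]
      _ ≤ _ := lintegral_mono fun r => le_self_add

/-- the co-area step, left side of `b` -/
theorem coarea_left {α : ℝ → ℝ} {g : ℝ → ℝ≥0∞} {a b e : ℝ}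
    (hα : ContinuousOn α (Icc a b)) (h0 : α b = 0)
    (hvar : ∀ t ∈ Icc a b, ENNReal.ofReal (α t - α b) ≤ ∫⁻ r in Ioc t b, g r)
    (he : 0 < e) (heb : e ≤ b - a) :
    ENNReal.ofReal e ≤ ∫⁻ r in {r | r ∈ Ioo a b ∧ α r < e}, (1 + g r) := by
  by_cases hex : ∃ r ∈ Icc a b, e ≤ α r
  · set S := {r | r ∈ Icc a b ∧ e ≤ α r} with hS
    have hne : S.Nonempty := by obtain ⟨r, h1, h2⟩ := hex; exact ⟨r, h1, h2⟩
    have hcl : IsClosed S := by
      have := hα.preimage_isClosed_of_isClosed isClosed_Icc (isClosed_Ici (a := e))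
      exact this
    have hbdd : BddAbove S := ⟨b, fun r hr => hr.1.2⟩
    have hτ : sSup S ∈ S := hcl.csSup_mem hne hbdd
    set τ := sSup S
    have haτ : τ < b := by
      refine lt_of_le_of_ne hτ.1.2 fun h => ?_
      have := hτ.2
      rw [h, h0] at this
      exact absurd this (not_le.2 he)
    have hlt : ∀ r, r ∈ Ioo τ b → r ∈ Ioo a b ∧ α r < e := by
      intro r hr
      have hrb : r ∈ Icc a b := ⟨hτ.1.1.trans hr.1.le, hr.2.le⟩
      refine ⟨⟨hτ.1.1.trans_lt hr.1, hr.2⟩, ?_⟩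
      by_contra hcon
      exact absurd (le_csSup hbdd ⟨hrb, not_lt.1 hcon⟩) (not_le.2 hr.1)
    calc ENNReal.ofReal e ≤ ENNReal.ofReal (α τ - α b) :=
          ENNReal.ofReal_le_ofReal (by rw [h0, sub_zero]; exact hτ.2)
      _ ≤ ∫⁻ r in Ioc τ b, g r := hvar τ hτ.1
      _ = ∫⁻ r in Ioo τ b, g r := by
          rw [restrict_Ioo_eq_restrict_Ioc]
      _ ≤ ∫⁻ r in {r | r ∈ Ioo a b ∧ α r < e}, g r := lintegral_mono_set fun r hr => hlt r hr
      _ ≤ _ := lintegral_mono fun r => le_add_self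
  · push Not at hex
    have : {r | r ∈ Ioo a b ∧ α r < e} = Ioo a b := by
      ext r
      exact ⟨fun h => h.1, fun h => ⟨h, hex r (Ioo_subset_Icc_self h)⟩⟩
    rw [this]
    calc ENNReal.ofReal e ≤ ENNReal.ofReal (b - a) := ENNReal.ofReal_le_ofReal heb
      _ = ∫⁻ _ in Ioo a b, (1 : ℝ≥0∞) := by rw [setLIntegral_one, Real.volume_Ioo]
      _ ≤ _ := lintegral_mono fun r => le_self_add

end coarea

theorem rankGE_zero (A : ι → ι → ℝ) : RankGE A 0 :=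
  ⟨∅, rfl, by rw [Matrix.det_isEmpty]; exact one_pos⟩

theorem exists_rank {A : ι → ι → ℝ} {k : ℕ} (h : ¬ RankGE A k) :
    ∃ j < k, RankGE A j ∧ ¬ RankGE A (j + 1) := by
  induction k with
  | zero => exact absurd (rankGE_zero A) h
  | succ k ih =>
    by_cases hk : RankGE A k
    · exact ⟨k, Nat.lt_succ_self k, hk, h⟩
    · obtain ⟨j, hj, h1⟩ := ih hk; exact ⟨j, hj.trans (Nat.lt_succ_self k), h1⟩

/-- the Gram data along one curve -/
structure GramCurve (G : ℝ → ι → ι → ℝ) (P : ℝ → ι → ℝ) (L : ℝ) (h : ι → ℝ → ℝ≥0∞) : Prop where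
  contG : ∀ i j, ContinuousOn (fun t => G t i j) (Ioo 0 1)
  contP : ∀ i, ContinuousOn (fun t => P t i) (Ioo 0 1)
  psd : ∀ t ∈ Ioo (0 : ℝ) 1, PSD (ext (G t) (P t) L)
  lip : ∀ (I : Finset ι) (c : ι → ℝ), ∀ s ∈ Ioo (0 : ℝ) 1, ∀ t ∈ Ioo (0 : ℝ) 1, s ≤ t →
    ENNReal.ofReal |√(Q (G t) (P t) L I c) - √(Q (G s) (P s) L I c)|
      ≤ ∫⁻ r in Ioc s t, ∑ i ∈ I, ENNReal.ofReal |c i| * h i r
  strong : ∀ t ∈ Ioo (0 : ℝ) 1, ∀ ε > 0, ∃ I c, Q (G t) (P t) L I c < ε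

namespace GramCurve

variable {G : ℝ → ι → ι → ℝ} {P : ℝ → ι → ℝ} {L : ℝ} {h : ι → ℝ → ℝ≥0∞}

omit [DecidableEq ι] in
theorem cont_sub (H : GramCurve G P L h) (I : Finset ι) :
    ContinuousOn (fun t => sub (G t) I) (Ioo 0 1) :=
  continuousOn_pi.2 fun i => continuousOn_pi.2 fun j => H.contG i j

theorem cont_det (H : GramCurve G P L h) (I : Finset ι) :
    ContinuousOn (fun t => (sub (G t) I).det) (Ioo 0 1) :=
  (continuous_id.matrix_det).comp_continuousOn (H.cont_sub I)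

theorem cont_alpha2 (H : GramCurve G P L h) (I : Finset ι) :
    ContinuousOn (fun t => alpha2 (G t) (P t) L I) {t | t ∈ Ioo (0 : ℝ) 1 ∧ 0 < (sub (G t) I).det} := by
  have hsub : {t | t ∈ Ioo (0 : ℝ) 1 ∧ 0 < (sub (G t) I).det} ⊆ Ioo 0 1 := fun t ht => ht.1
  have h2 : ContinuousOn (fun t => adjugate (sub (G t) I)) (Ioo 0 1) :=
    (continuous_id.matrix_adjugate).comp_continuousOn (H.cont_sub I)
  have h3 : ContinuousOn (fun t => (sub (G t) I).det⁻¹)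
      {t | t ∈ Ioo (0 : ℝ) 1 ∧ 0 < (sub (G t) I).det} :=
    ((H.cont_det I).mono hsub).inv₀ fun t ht => ht.2.ne'
  have h4 : ∀ i : I, ContinuousOn
      (fun t => (adjugate (sub (G t) I) *ᵥ fun i : I => P t i) i) (Ioo 0 1) := by
    intro i
    simp only [mulVec, dotProduct]
    exact continuousOn_finsetSum _ fun j _ =>
      (continuousOn_pi.1 (continuousOn_pi.1 h2 i) j).mul (H.contP j)
  have h5 : ∀ i : I, ContinuousOn (fun t => proj (G t) (P t) I i)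
      {t | t ∈ Ioo (0 : ℝ) 1 ∧ 0 < (sub (G t) I).det} := by
    intro i
    have : (fun t => proj (G t) (P t) I i)
        = fun t => (sub (G t) I).det⁻¹ * (adjugate (sub (G t) I) *ᵥ fun i : I => P t i) i :=
      funext fun t => by rw [proj_eq]; rfl
    rw [this]
    exact h3.mul ((h4 i).mono hsub)
  unfold alpha2
  simp only [dotProduct]
  exact continuousOn_const.sub (continuousOn_finsetSum _ fun i _ =>
    ((H.contP i).mono hsub).mul (h5 i))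

theorem alpha_le (H : GramCurve G P L h) {I : Finset ι} {C : ℝ} {s t : ℝ}
    (hs : s ∈ Ioo (0 : ℝ) 1) (ht : t ∈ Ioo (0 : ℝ) 1) (hst : s ≤ t)
    (hds : 0 < (sub (G s) I).det) (hdt : 0 < (sub (G t) I).det)
    (hCs : ∀ i : I, |proj (G s) (P s) I i| ≤ C) :
    ENNReal.ofReal (√(alpha2 (G t) (P t) L I) - √(alpha2 (G s) (P s) L I))
      ≤ ∫⁻ r in Ioc s t, ENNReal.ofReal C * ∑ i ∈ I, h i r := by
  set c := exz I (proj (G s) (P s) I)
  have h1 : √(alpha2 (G t) (P t) L I) ≤ √(Q (G t) (P t) L I c) :=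
    Real.sqrt_le_sqrt (alpha2_le_Q (H.psd t ht) hdt c)
  have h2 : Q (G s) (P s) L I c = alpha2 (G s) (P s) L I := Q_proj (H.psd s hs) hds
  have h3 := H.lip I c s hs t ht hst
  rw [h2] at h3
  refine (ENNReal.ofReal_le_ofReal ?_).trans (h3.trans (lintegral_mono fun r => ?_))
  · exact (sub_le_sub_right h1 _).trans (le_abs_self _)
  · rw [Finset.mul_sum]
    refine Finset.sum_le_sum fun i hi => ?_
    have : |c i| ≤ C := by
      have := hCs ⟨i, hi⟩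
      rwa [← exz_apply I (proj (G s) (P s) I) ⟨i, hi⟩] at this
    gcongr

theorem alpha_le' (H : GramCurve G P L h) {I : Finset ι} {C : ℝ} {s t : ℝ}
    (hs : s ∈ Ioo (0 : ℝ) 1) (ht : t ∈ Ioo (0 : ℝ) 1) (hst : s ≤ t)
    (hds : 0 < (sub (G s) I).det) (hdt : 0 < (sub (G t) I).det)
    (hCt : ∀ i : I, |proj (G t) (P t) I i| ≤ C) :
    ENNReal.ofReal (√(alpha2 (G s) (P s) L I) - √(alpha2 (G t) (P t) L I))
      ≤ ∫⁻ r in Ioc s t, ENNReal.ofReal C * ∑ i ∈ I, h i r := by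
  set c := exz I (proj (G t) (P t) I)
  have h1 : √(alpha2 (G s) (P s) L I) ≤ √(Q (G s) (P s) L I c) :=
    Real.sqrt_le_sqrt (alpha2_le_Q (H.psd s hs) hds c)
  have h2 : Q (G t) (P t) L I c = alpha2 (G t) (P t) L I := Q_proj (H.psd t ht) hdt
  have h3 := H.lip I c s hs t ht hst
  rw [h2] at h3
  refine (ENNReal.ofReal_le_ofReal ?_).trans (h3.trans (lintegral_mono fun r => ?_))
  · exact (sub_le_sub_right h1 _).trans (by rw [abs_sub_comm]; exact le_abs_self _)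
  · rw [Finset.mul_sum]
    refine Finset.sum_le_sum fun i hi => ?_
    have : |c i| ≤ C := by
      have := hCt ⟨i, hi⟩
      rwa [← exz_apply I (proj (G t) (P t) I) ⟨i, hi⟩] at this
    gcongr

theorem isOpen_rank (H : GramCurve G P L h) (k : ℕ) :
    IsOpen {t | t ∈ Ioo (0 : ℝ) 1 ∧ RankGE (G t) k} := by
  have : {t | t ∈ Ioo (0 : ℝ) 1 ∧ RankGE (G t) k}
      = ⋃ (I : Finset ι) (_ : I.card = k), {t | t ∈ Ioo (0 : ℝ) 1 ∧ 0 < (sub (G t) I).det} := by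
    ext t
    simp only [mem_ofPred_eq, mem_iUnion, RankGE, exists_prop]
    constructor
    · rintro ⟨h1, I, h2, h3⟩; exact ⟨I, h2, h1, h3⟩
    · rintro ⟨I, h2, h1, h3⟩; exact ⟨h1, I, h2, h3⟩
  rw [this]
  refine isOpen_iUnion fun I => isOpen_iUnion fun _ => ?_
  exact (H.cont_det I).isOpen_inter_preimage isOpen_Ioo isOpen_Ioi

/-- the integrand of the avoidance estimate -/
def badSet (G : ℝ → ι → ι → ℝ) (P : ℝ → ι → ℝ) (L : ℝ) (I : Finset ι) (δ e : ℝ) : Set ℝ :=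
  {r | r ∈ Ioo δ (1 - δ) ∧ RankGE (G r) (I.card + 1) ∧ δ < (sub (G r) I).det ∧
    alpha2 (G r) (P r) L I < e ^ 2}

/-- **E3, one curve.** Either the rank is constant, or there is an exact drop time `t₀` near which
the co-area integral is at least `e`. -/
theorem const_or_bad (H : GramCurve G P L h) {Λ : ι → ι → ℝ} {Λ' : ι → ℝ} {N₀ : ℕ}
    (hG : ∀ t ∈ Ioo (0 : ℝ) 1, ∀ i j, |G t i j| ≤ Λ i j)
    (hP : ∀ t ∈ Ioo (0 : ℝ) 1, ∀ i, |P t i| ≤ Λ' i)
    (hN : ∀ t ∈ Ioo (0 : ℝ) 1, ¬ RankGE (G t) (N₀ + 1))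
    {C : Finset ι → ℕ → ℝ}
    (hC : ∀ (I : Finset ι) (n : ℕ) (A : ι → ι → ℝ) (q : ι → ℝ), (∀ i j, |A i j| ≤ Λ i j) →
      (∀ i, |q i| ≤ Λ' i) → 1 / ((n : ℝ) + 1) ≤ (sub A I).det → ∀ i : I, |proj A q I i| ≤ C I n)
    (hL : 0 < L) :
    (∃ k, ∀ t ∈ Ioo (0 : ℝ) 1, RankGE (G t) k ∧ ¬ RankGE (G t) (k + 1)) ∨
    ∃ (I : Finset ι) (n : ℕ), ∃ t₀ ∈ Ioo (0 : ℝ) 1, RankGE (G t₀) I.card ∧
      ¬ RankGE (G t₀) (I.card + 1) ∧ 1 / ((n : ℝ) + 1) < L ∧
      ∀ V ∈ 𝓝 t₀, ∃ e₀ > 0, ∀ e ∈ Ioo 0 e₀, ENNReal.ofReal e ≤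
        ∫⁻ r in V ∩ badSet G P L I (1 / ((n : ℝ) + 1)) e,
          (1 + ENNReal.ofReal (C I n) * ∑ i ∈ I, h i r) := by
  classical
  by_cases hconst : ∃ k, ∀ t ∈ Ioo (0 : ℝ) 1, RankGE (G t) k ∧ ¬ RankGE (G t) (k + 1)
  · exact Or.inl hconst
  right
  -- a non-constant rank condition
  obtain ⟨k, t₁, ht₁, t₂, ht₂, hk1, hk2⟩ : ∃ k, ∃ t₁ ∈ Ioo (0 : ℝ) 1, ∃ t₂ ∈ Ioo (0 : ℝ) 1,
      RankGE (G t₁) k ∧ ¬ RankGE (G t₂) k := by
    by_contra hcon
    push Not at hcon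
    have hhalf : (1 / 2 : ℝ) ∈ Ioo (0 : ℝ) 1 := by constructor <;> norm_num
    obtain ⟨j, -, h1, h2⟩ := exists_rank (hN _ hhalf)
    exact hconst ⟨j, fun t ht => ⟨hcon j _ hhalf t ht h1, fun h => h2 (hcon (j + 1) t ht _ hhalf h)⟩⟩
  have hUopen := H.isOpen_rank k
  set U := {t | t ∈ Ioo (0 : ℝ) 1 ∧ RankGE (G t) k} with hU
  -- an end point of a component: `t₀ ∉ U` and a one-sided interval in `U`
  obtain ⟨t₀, ht₀, ht₀U, hside⟩ : ∃ t₀ ∈ Ioo (0 : ℝ) 1, ¬ RankGE (G t₀) k ∧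
      ((∃ b > t₀, Ioc t₀ b ⊆ U) ∨ (∃ a < t₀, Ico a t₀ ⊆ U)) := by
    have hne : t₁ ≠ t₂ := fun h => hk2 (h ▸ hk1)
    rcases lt_or_gt_of_ne hne with hlt | hlt
    · -- `t₁ < t₂`, take the infimum of the complement
      set S := Icc t₁ t₂ \ U with hS
      have hcl : IsClosed S := isClosed_Icc.sdiff hUopen
      have hneS : S.Nonempty := ⟨t₂, right_mem_Icc.2 hlt.le, fun h => hk2 h.2⟩
      have hbd : BddBelow S := ⟨t₁, fun r hr => hr.1.1⟩
      have hm : sInf S ∈ S := hcl.csInf_mem hneS hbd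
      have hmem : sInf S ∈ Ioo (0 : ℝ) 1 := ⟨ht₁.1.trans_le hm.1.1, hm.1.2.trans_lt ht₂.2⟩
      refine ⟨sInf S, hmem, fun h => hm.2 ⟨hmem, h⟩, Or.inr ⟨t₁, ?_, ?_⟩⟩
      · refine lt_of_le_of_ne hm.1.1 fun h => hm.2 ?_
        rw [← h]; exact ⟨ht₁, hk1⟩
      · intro r hr
        by_contra hrU
        exact absurd (csInf_le hbd ⟨⟨hr.1, hr.2.le.trans hm.1.2⟩, hrU⟩) (not_le.2 hr.2)
    · set S := Icc t₂ t₁ \ U with hS
      have hcl : IsClosed S := isClosed_Icc.sdiff hUopen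
      have hneS : S.Nonempty := ⟨t₂, left_mem_Icc.2 hlt.le, fun h => hk2 h.2⟩
      have hbd : BddAbove S := ⟨t₁, fun r hr => hr.1.2⟩
      have hm : sSup S ∈ S := hcl.csSup_mem hneS hbd
      have hmem : sSup S ∈ Ioo (0 : ℝ) 1 := ⟨ht₂.1.trans_le hm.1.1, hm.1.2.trans_lt ht₁.2⟩
      refine ⟨sSup S, hmem, fun h => hm.2 ⟨hmem, h⟩, Or.inl ⟨t₁, ?_, ?_⟩⟩
      · refine lt_of_le_of_ne hm.1.2 fun h => hm.2 ?_
        rw [h]; exact ⟨ht₁, hk1⟩
      · intro r hr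
        by_contra hrU
        exact absurd (le_csSup hbd ⟨⟨hm.1.1.trans hr.1.le, hr.2⟩, hrU⟩) (not_le.2 hr.1)
  -- the exact rank at `t₀`
  obtain ⟨j, hjk, ⟨I, hIj, hdet⟩, hj1⟩ := exists_rank ht₀U
  subst hIj
  have hα0 : alpha2 (G t₀) (P t₀) L I = 0 := by
    refine le_antisymm (le_of_forall_pos_lt_add fun ε hε => ?_) (alpha2_nonneg (H.psd t₀ ht₀) hdet)
    obtain ⟨K, c, hc⟩ := H.strong t₀ ht₀ ε hε
    rw [zero_add]
    exact (alpha2_le_of_rank (H.psd t₀ ht₀) hdet hj1 K c).trans_lt hc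
  obtain ⟨n, hn⟩ := exists_nat_one_div_lt (lt_min (lt_min hL hdet) (lt_min ht₀.1 (sub_pos.2 ht₀.2)))
  set δ : ℝ := 1 / ((n : ℝ) + 1) with hδ
  have hδ0 : 0 < δ := by rw [hδ]; positivity
  have hn1 : δ < L := hn.trans_le ((min_le_left _ _).trans (min_le_left _ _))
  have hn2 : δ < (sub (G t₀) I).det := hn.trans_le ((min_le_left _ _).trans (min_le_right _ _))
  have hn3 : δ < t₀ := hn.trans_le ((min_le_right _ _).trans (min_le_left _ _))
  have hn4 : δ < 1 - t₀ := hn.trans_le ((min_le_right _ _).trans (min_le_right _ _))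
  refine ⟨I, n, t₀, ht₀, ⟨I, rfl, hdet⟩, hj1, hn1, fun V hV => ?_⟩
  -- a good neighbourhood
  have hW : {t | t ∈ V ∧ t ∈ Ioo δ (1 - δ) ∧ t ∈ Ioo (0 : ℝ) 1 ∧ δ < (sub (G t) I).det} ∈ 𝓝 t₀ := by
    refine inter_mem hV (inter_mem (Ioo_mem_nhds hn3 (by linarith)) (inter_mem
      (Ioo_mem_nhds ht₀.1 ht₀.2) ?_))
    have hc := (H.cont_det I).continuousAt (Ioo_mem_nhds ht₀.1 ht₀.2)
    exact hc.eventually_const_lt hn2
  obtain ⟨ρ, hρ, hball⟩ := Metric.mem_nhds_iff.1 hW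
  have hCb : ∀ t ∈ Ioo (0 : ℝ) 1, δ < (sub (G t) I).det →
      ∀ i : I, |proj (G t) (P t) I i| ≤ C I n := fun t ht hd i =>
    hC I n _ _ (hG t ht) (hP t ht) hd.le i
  have hrankU : ∀ t ∈ U, RankGE (G t) (I.card + 1) := fun t ht =>
    ht.2.mono_le (H.psd t ht.1).of_ext hjk
  have hsq : ∀ t, √(alpha2 (G t) (P t) L I) = 0 ∨ True := fun t => Or.inr trivial
  rcases hside with ⟨b, hb, hbU⟩ | ⟨a, ha, haU⟩
  · -- right side
    set b' := min b (t₀ + ρ / 2) with hb'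
    have hb'0 : t₀ < b' := lt_min hb (by linarith)
    have hsubW : ∀ t ∈ Icc t₀ b', t ∈ V ∧ t ∈ Ioo δ (1 - δ) ∧ t ∈ Ioo (0 : ℝ) 1 ∧
        δ < (sub (G t) I).det := by
      intro t ht
      refine hball ?_
      rw [Metric.mem_ball, Real.dist_eq, abs_of_nonneg (by linarith [ht.1])]
      have := ht.2.trans (min_le_right b (t₀ + ρ / 2))
      linarith
    refine ⟨b' - t₀, by linarith, fun e he => ?_⟩
    have hcont : ContinuousOn (fun t => √(alpha2 (G t) (P t) L I)) (Icc t₀ b') :=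
      ((H.cont_alpha2 I).mono fun t ht => ⟨(hsubW t ht).2.2.1, hδ0.trans (hsubW t ht).2.2.2⟩).sqrt
    have key := coarea_right (α := fun t => √(alpha2 (G t) (P t) L I))
      (g := fun r => ENNReal.ofReal (C I n) * ∑ i ∈ I, h i r) hcont
      (by simp only [hα0, Real.sqrt_zero])
      (fun t ht => H.alpha_le ht₀ (hsubW t ht).2.2.1 ht.1 hdet
        (hδ0.trans (hsubW t ht).2.2.2) (hCb t₀ ht₀ hn2)) he.1 he.2.le
    refine key.trans (lintegral_mono_set ?_)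
    rintro r ⟨hr1, hr2⟩
    have hrI : r ∈ Icc t₀ b' := Ioo_subset_Icc_self hr1
    obtain ⟨w1, w2, w3, w4⟩ := hsubW r hrI
    have hrU : r ∈ U := hbU ⟨hr1.1, hr1.2.le.trans (min_le_left _ _)⟩
    refine ⟨w1, w2, hrankU r hrU, w4, ?_⟩
    have h0 := alpha2_nonneg (H.psd r w3) (hδ0.trans w4)
    rwa [Real.sqrt_lt' he.1] at hr2
  · set a' := max a (t₀ - ρ / 2) with ha'
    have ha'0 : a' < t₀ := max_lt ha (by linarith)
    have hsubW : ∀ t ∈ Icc a' t₀, t ∈ V ∧ t ∈ Ioo δ (1 - δ) ∧ t ∈ Ioo (0 : ℝ) 1 ∧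
        δ < (sub (G t) I).det := by
      intro t ht
      refine hball ?_
      rw [Metric.mem_ball, Real.dist_eq, abs_sub_comm, abs_of_nonneg (by linarith [ht.2])]
      have := (le_max_right a (t₀ - ρ / 2)).trans ht.1
      linarith
    refine ⟨t₀ - a', by linarith, fun e he => ?_⟩
    have hcont : ContinuousOn (fun t => √(alpha2 (G t) (P t) L I)) (Icc a' t₀) :=
      ((H.cont_alpha2 I).mono fun t ht => ⟨(hsubW t ht).2.2.1, hδ0.trans (hsubW t ht).2.2.2⟩).sqrt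
    have key := coarea_left (α := fun t => √(alpha2 (G t) (P t) L I))
      (g := fun r => ENNReal.ofReal (C I n) * ∑ i ∈ I, h i r) hcont
      (by simp only [hα0, Real.sqrt_zero])
      (fun t ht => H.alpha_le' (hsubW t ht).2.2.1 ht₀ ht.2
        (hδ0.trans (hsubW t ht).2.2.2) hdet (hCb t₀ ht₀ hn2)) he.1 he.2.le
    refine key.trans (lintegral_mono_set ?_)
    rintro r ⟨hr1, hr2⟩
    have hrI : r ∈ Icc a' t₀ := Ioo_subset_Icc_self hr1
    obtain ⟨w1, w2, w3, w4⟩ := hsubW r hrI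
    have hrU : r ∈ U := haU ⟨(le_max_left _ _).trans hr1.1.le, hr1.2⟩
    refine ⟨w1, w2, hrankU r hrU, w4, ?_⟩
    have h0 := alpha2_nonneg (H.psd r w3) (hδ0.trans w4)
    rwa [Real.sqrt_lt' he.1] at hr2

end GramCurve

end Vale.Agent.P233.H450
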