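import Mathlib.MeasureTheory.Integral.IntervalIntegral.AbsolutelyContinuousFun
import Mathlib.Analysis.SpecialFunctions.Sqrt

/-! # P233, E3: the square root of a nonnegative absolutely continuous function -/

open Set Filter Topology MeasureTheory
open scoped ENNReal

namespace Vale.Agent.P233.H450

theorem ac_comp {f φ : ℝ → ℝ} {a b K : ℝ} (hf : AbsolutelyContinuousOnInterval f a b)
    (hφ : ∀ x y, dist (φ x) (φ y) ≤ K * dist x y) :
    AbsolutelyContinuousOnInterval (fun r => φ (f r)) a b := by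
  unfold AbsolutelyContinuousOnInterval at hf ⊢
  refine squeeze_zero (fun t => Finset.sum_nonneg fun i _ => dist_nonneg) (fun t => ?_)
    (by simpa using hf.const_mul K)
  rw [Finset.mul_sum]
  exact Finset.sum_le_sum fun i _ => hφ _ _

theorem sqrt_dist {ε : ℝ} (hε : 0 < ε) (x y : ℝ) :
    dist (√(max x 0 + ε)) (√(max y 0 + ε)) ≤ (√ε)⁻¹ * dist x y := by
  have h0 : 0 < √ε := Real.sqrt_pos.2 hε
  have hx : 0 ≤ max x 0 + ε := by positivity
  have hy : 0 ≤ max y 0 + ε := by positivity
  have hx1 : √ε ≤ √(max x 0 + ε) := Real.sqrt_le_sqrt (by linarith [le_max_right x 0])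
  have hy1 : 0 ≤ √(max y 0 + ε) := Real.sqrt_nonneg _
  have h1 : (√(max x 0 + ε) - √(max y 0 + ε)) * (√(max x 0 + ε) + √(max y 0 + ε))
      = max x 0 - max y 0 := by
    have := Real.mul_self_sqrt hx
    have := Real.mul_self_sqrt hy
    nlinarith
  have h2 : |√(max x 0 + ε) - √(max y 0 + ε)| * √ε ≤ |x - y| := by
    calc |√(max x 0 + ε) - √(max y 0 + ε)| * √ε
        ≤ |√(max x 0 + ε) - √(max y 0 + ε)| * (√(max x 0 + ε) + √(max y 0 + ε)) := by
          gcongr; linarith
      _ = |max x 0 - max y 0| := by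
          rw [← h1, abs_mul, abs_of_nonneg (a := √(max x 0 + ε) + √(max y 0 + ε)) (by linarith)]
      _ ≤ |x - y| := abs_max_sub_max_le_abs _ _ _
  rw [Real.dist_eq, Real.dist_eq, inv_mul_eq_div, le_div_iff₀ h0]
  exact h2

/-- `A' = a`, `|a| ≤ 2 g √A` implies `|√A(t) - √A(s)| ≤ ∫ g` -/
theorem sqrt_lip {A a : ℝ → ℝ} {g : ℝ → ℝ≥0∞} {s t : ℝ} (hst : s ≤ t)
    (hA0 : ∀ r ∈ Icc s t, 0 ≤ A r) (hint : IntervalIntegrable a volume s t)
    (hA : ∀ r ∈ Icc s t, A r = A s + ∫ u in s..r, a u)
    (hb : ∀ᵐ r ∂(volume.restrict (Ioo s t)), ENNReal.ofReal |a r| ≤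
      2 * g r * ENNReal.ofReal √(A r)) :
    ENNReal.ofReal |√(A t) - √(A s)| ≤ ∫⁻ r in Ioc s t, g r := by
  have hac : AbsolutelyContinuousOnInterval (fun r => ∫ u in s..r, a u) s t :=
    hint.absolutelyContinuousOnInterval_intervalIntegral (by simp)
  have hA' : AbsolutelyContinuousOnInterval (fun r => A s + ∫ u in s..r, a u) s t := by
    have h1 : AbsolutelyContinuousOnInterval (fun _ : ℝ => A s) s t := by
      unfold AbsolutelyContinuousOnInterval
      simpa using tendsto_const_nhds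
    exact h1.add hac
  have key : ∀ ε : ℝ, 0 < ε → ENNReal.ofReal |√(A t + ε) - √(A s + ε)| ≤ ∫⁻ r in Ioc s t, g r := by
    intro ε hε
    set F : ℝ → ℝ := fun r => √(max (A s + ∫ u in s..r, a u) 0 + ε) with hF
    have hFac : AbsolutelyContinuousOnInterval F s t :=
      ac_comp (φ := fun x => √(max x 0 + ε)) hA' (sqrt_dist hε)
    have hFA : ∀ r ∈ Icc s t, F r = √(A r + ε) := by
      intro r hr
      simp only [hF]
      rw [← hA r hr, max_eq_left (hA0 r hr)]
    have h1 := hFac.integral_deriv_eq_sub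
    rw [hFA t (right_mem_Icc.2 hst), hFA s (left_mem_Icc.2 hst)] at h1
    rw [← h1, intervalIntegral.integral_of_le hst, ← Real.norm_eq_abs]
    refine (ENNReal.ofReal_le_ofReal (norm_integral_le_integral_norm _)).trans ?_
    rw [ofReal_integral_norm_eq_lintegral_enorm
      ((intervalIntegrable_iff_integrableOn_Ioc_of_le hst).1 hFac.intervalIntegrable_deriv)]
    rw [← restrict_Ioo_eq_restrict_Ioc]
    refine lintegral_mono_ae ?_
    have h2 := hint.ae_hasDerivAt_integral
    filter_upwards [hb, ae_restrict_of_ae h2, ae_restrict_mem measurableSet_Ioo] with r hr1 hr2 hr3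
    have hrI : r ∈ Icc s t := Ioo_subset_Icc_self hr3
    have hr4 : HasDerivAt (fun x => ∫ u in s..x, a u) (a r) r :=
      hr2 (by rw [uIcc_of_le hst]; exact hrI) s (by simp)
    have hpos : 0 < A r + ε := add_pos_of_nonneg_of_pos (hA0 r hrI) hε
    have hr5 : HasDerivAt (fun x => √(A s + (∫ u in s..x, a u) + ε)) (a r / (2 * √(A r + ε))) r := by
      have h3 : HasDerivAt (fun x => A s + (∫ u in s..x, a u) + ε) (a r) r :=
        (hr4.const_add (A s)).add_const ε
      have h4 := h3.sqrt (by rw [← hA r hrI]; exact hpos.ne')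
      rw [← hA r hrI] at h4
      exact h4
    have hr6 : HasDerivAt F (a r / (2 * √(A r + ε))) r := by
      refine hr5.congr_of_eventuallyEq ?_
      filter_upwards [Ioo_mem_nhds hr3.1 hr3.2] with x hx
      have hxI := Ioo_subset_Icc_self hx
      rw [hFA x hxI, hA x hxI]
    rw [hr6.deriv]
    have hs : 0 < √(A r + ε) := Real.sqrt_pos.2 hpos
    have h5 : ‖a r / (2 * √(A r + ε))‖ₑ = ENNReal.ofReal |a r| / ENNReal.ofReal (2 * √(A r + ε)) := by
      rw [← ofReal_norm, norm_div, Real.norm_eq_abs, Real.norm_eq_abs,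
        abs_of_pos (a := 2 * √(A r + ε)) (by positivity), ENNReal.ofReal_div_of_pos (by positivity)]
    rw [h5]
    refine ENNReal.div_le_of_le_mul ?_
    refine hr1.trans ?_
    have h6 : ENNReal.ofReal √(A r) ≤ ENNReal.ofReal √(A r + ε) :=
      ENNReal.ofReal_le_ofReal (Real.sqrt_le_sqrt (by linarith))
    calc 2 * g r * ENNReal.ofReal √(A r) ≤ 2 * g r * ENNReal.ofReal √(A r + ε) := by gcongr
      _ = g r * ENNReal.ofReal (2 * √(A r + ε)) := by
          rw [ENNReal.ofReal_mul (by norm_num), ENNReal.ofReal_ofNat]; ring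
  have hlim : Tendsto (fun ε : ℝ => ENNReal.ofReal |√(A t + ε) - √(A s + ε)|) (𝓝[>] 0)
      (𝓝 (ENNReal.ofReal |√(A t) - √(A s)|)) := by
    have hc : Continuous fun ε : ℝ => |√(A t + ε) - √(A s + ε)| := by fun_prop
    have h1 := (ENNReal.continuous_ofReal.comp hc).tendsto 0
    simp only [Function.comp_def, add_zero] at h1
    exact h1.mono_left nhdsWithin_le_nhds
  exact le_of_tendsto hlim (by filter_upwards [self_mem_nhdsWithin] with ε hε using key ε hε)

end Vale.Agent.P233.H450
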