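import Vale.Agent.P233.H450.Avoid2
import Vale.Agent.P233.H450.SqrtLip
import Mathlib.MeasureTheory.Integral.DominatedConvergence

/-! # P233, E3 (avoidance): the Gram data along one curve -/

open Matrix Set Filter Topology MeasureTheory
open scoped ENNReal InnerProductSpace

namespace Vale.Agent.P233.H450

theorem cont_prim {g : ℝ → ℝ} (c : ℝ) (hg : ∀ s ∈ Ioo (0 : ℝ) 1, IntervalIntegrable g volume s 1) :
    ContinuousOn (fun t => c - ∫ r in t..1, g r) (Ioo 0 1) := by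
  refine continuousOn_const.sub fun t ht => ?_
  have hs : t / 2 ∈ Ioo (0 : ℝ) 1 := ⟨by linarith [ht.1], by linarith [ht.1, ht.2]⟩
  have h1 : ContinuousOn (fun x => ∫ r in x..1, g r) (uIcc (t / 2) 1) := by
    refine intervalIntegral.continuousOn_primitive_interval_left ?_
    exact (intervalIntegrable_iff' (by finiteness)).1 (hg _ hs)
  rw [uIcc_of_le hs.2.le] at h1
  refine (h1.continuousAt ?_).continuousWithinAt
  exact Icc_mem_nhds (by linarith [ht.1]) ht.2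

theorem ae_nonneg_cont {f : ℝ → ℝ} (hf : ContinuousOn f (Ioo 0 1))
    (h : ∀ᵐ t ∂(volume.restrict (Ioo (0 : ℝ) 1)), 0 ≤ f t) : ∀ t ∈ Ioo (0 : ℝ) 1, 0 ≤ f t := by
  have h1 : (fun t => |f t|) =ᵐ[volume.restrict (Ioo (0 : ℝ) 1)] f := by
    filter_upwards [h] with t ht using abs_of_nonneg ht
  have h2 := Measure.eqOn_open_of_ae_eq h1 isOpen_Ioo hf.abs hf
  intro t ht
  have := h2 ht
  exact abs_eq_self.1 this

theorem ae_le_cont {f g : ℝ → ℝ} (hf : ContinuousOn f (Ioo 0 1)) (hg : ContinuousOn g (Ioo 0 1))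
    (h : ∀ᵐ t ∂(volume.restrict (Ioo (0 : ℝ) 1)), f t ≤ g t) : ∀ t ∈ Ioo (0 : ℝ) 1, f t ≤ g t := by
  intro t ht
  have := ae_nonneg_cont (hg.sub hf) (h.mono fun t ht => sub_nonneg.2 ht) t ht
  exact sub_nonneg.1 this

theorem ae_eq_cont {f g : ℝ → ℝ} (hf : ContinuousOn f (Ioo 0 1)) (hg : ContinuousOn g (Ioo 0 1))
    (h : ∀ᵐ t ∂(volume.restrict (Ioo (0 : ℝ) 1)), f t = g t) : ∀ t ∈ Ioo (0 : ℝ) 1, f t = g t :=
  Measure.eqOn_open_of_ae_eq h isOpen_Ioo hf hg

theorem psd_of_ae {κ : Type*} {B : ℝ → κ → κ → ℝ}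
    (hc : ∀ i j, ContinuousOn (fun t => B t i j) (Ioo 0 1))
    (h : ∀ᵐ t ∂(volume.restrict (Ioo (0 : ℝ) 1)), PSD (B t)) : ∀ t ∈ Ioo (0 : ℝ) 1, PSD (B t) := by
  intro t ht
  refine ⟨fun i j => ae_eq_cont (hc i j) (hc j i) (h.mono fun t ht => ht.1 i j) t ht,
    fun J c => ?_⟩
  refine ae_nonneg_cont (f := fun t => ∑ i ∈ J, ∑ j ∈ J, c i * c j * B t i j) ?_
    (h.mono fun t ht => ht.2 J c) t ht
  exact continuousOn_finsetSum _ fun i _ => continuousOn_finsetSum _ fun j _ =>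
    continuousOn_const.mul (hc i j)

section gram

variable {E : Type*} [NormedAddCommGroup E] [InnerProductSpace ℝ E]

theorem psd_gram {κ : Type*} (z : κ → E) : PSD fun o o' => ⟪z o, z o'⟫_ℝ := by
  refine ⟨fun i j => real_inner_comm _ _, fun J c => ?_⟩
  have : ∑ i ∈ J, ∑ j ∈ J, c i * c j * ⟪z i, z j⟫_ℝ = ‖∑ i ∈ J, c i • z i‖ ^ 2 := by
    rw [← real_inner_self_eq_norm_sq, sum_inner]
    refine Finset.sum_congr rfl fun i _ => ?_
    rw [inner_sum]
    refine Finset.sum_congr rfl fun j _ => ?_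
    rw [real_inner_smul_left, real_inner_smul_right]; ring
  rw [this]; positivity

theorem psd_ext_gram {ι : Type*} {A : ι → ι → ℝ} {q : ι → ℝ} {L : ℝ} (g : ι → E) (v : E)
    (hA : ∀ i j, A i j = ⟪g i, g j⟫_ℝ) (hq : ∀ i, q i = ⟪g i, v⟫_ℝ) (hL : L = ⟪v, v⟫_ℝ) :
    PSD (ext A q L) := by
  have h := psd_gram (fun o : Option ι => o.elim v g)
  have : ext A q L = fun o o' : Option ι => ⟪(o.elim v g : E), (o'.elim v g : E)⟫_ℝ := by
    funext o o'
    rcases o with _ | i <;> rcases o' with _ | j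
    · exact hL
    · simp only [ext, Option.elim]; rw [hq, real_inner_comm]
    · exact hq i
    · exact hA i j
  rw [this]; exact h

theorem Q_gram {ι : Type*} {A : ι → ι → ℝ} {q : ι → ℝ} {L : ℝ} (g : ι → E) (v : E)
    (hA : ∀ i j, A i j = ⟪g i, g j⟫_ℝ) (hq : ∀ i, q i = ⟪g i, v⟫_ℝ) (hL : L = ⟪v, v⟫_ℝ)
    (I : Finset ι) (c : ι → ℝ) : Q A q L I c = ‖v - ∑ i ∈ I, c i • g i‖ ^ 2 :=
  Q_eq_norm (J := I) (x := g) (v := v) (fun i _ j _ => (hA i j).symm)
    (fun i _ => by rw [hq, real_inner_comm]) hL.symm subset_rfl c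

theorem gramCurve_of {ι : Type*} [DecidableEq ι] [Countable ι] {G : ℝ → ι → ι → ℝ}
    {P : ℝ → ι → ℝ} {L : ℝ} {g a : ι → ℝ → E} {v : ℝ → E} {cG : ι → ι → ℝ} {gG : ι → ι → ℝ → ℝ}
    {cP : ι → ℝ}
    (hG : ∀ i j, ∀ t ∈ Ioc (0 : ℝ) 1, G t i j = cG i j - ∫ r in t..1, gG i j r)
    (hGi : ∀ i j, ∀ s ∈ Ioo (0 : ℝ) 1, IntervalIntegrable (gG i j) volume s 1)
    (hP : ∀ i, ∀ t, P t i = cP i - ∫ r in t..1, ⟪a i r, v r⟫_ℝ)
    (hPi : ∀ i, ∀ s ∈ Ioo (0 : ℝ) 1, IntervalIntegrable (fun r => ⟪a i r, v r⟫_ℝ) volume s 1)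
    (gram : ∀ᵐ t ∂(volume.restrict (Ioo (0 : ℝ) 1)), ∀ i j, G t i j = ⟪g i t, g j t⟫_ℝ)
    (pv : ∀ᵐ t ∂(volume.restrict (Ioo (0 : ℝ) 1)), ∀ i, P t i = ⟪g i t, v t⟫_ℝ)
    (nv : ∀ᵐ t ∂(volume.restrict (Ioo (0 : ℝ) 1)), L = ⟪v t, v t⟫_ℝ)
    (der : ∀ᵐ t ∂(volume.restrict (Ioo (0 : ℝ) 1)), ∀ i j,
      gG i j t = ⟪a i t, g j t⟫_ℝ + ⟪a j t, g i t⟫_ℝ)
    (strong : ∀ t ∈ Ioo (0 : ℝ) 1, ∀ ε > 0, ∃ I c, Q (G t) (P t) L I c < ε) :
    GramCurve G P L fun i r => ‖a i r‖ₑ := by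
  have hcG : ∀ i j, ContinuousOn (fun t => G t i j) (Ioo 0 1) := fun i j =>
    (cont_prim (cG i j) (hGi i j)).congr fun t ht => hG i j t (Ioo_subset_Ioc_self ht)
  have hcP : ∀ i, ContinuousOn (fun t => P t i) (Ioo 0 1) := fun i =>
    (cont_prim (cP i) (hPi i)).congr fun t _ => hP i t
  have hpsd : ∀ t ∈ Ioo (0 : ℝ) 1, PSD (ext (G t) (P t) L) := by
    refine psd_of_ae ?_ ?_
    · rintro (_ | i) (_ | j)
      · exact continuousOn_const
      · exact hcP j
      · exact hcP i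
      · exact hcG i j
    · filter_upwards [gram, pv, nv] with t h1 h2 h3
      exact psd_ext_gram (fun i => g i t) (v t) h1 h2 h3
  refine ⟨hcG, hcP, hpsd, ?_, strong⟩
  intro I c s hs t ht hst
  -- derivative
  set q' : ℝ → ℝ := fun u => ∑ i ∈ I, ∑ j ∈ I, c i * c j * gG i j u
    - 2 * ∑ i ∈ I, c i * ⟪a i u, v u⟫_ℝ with hq'
  have hii : ∀ {f : ℝ → ℝ}, (∀ s ∈ Ioo (0 : ℝ) 1, IntervalIntegrable f volume s 1) →
      ∀ r ∈ Icc s t, IntervalIntegrable f volume s r := by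
    intro f hf r hr
    exact (hf s hs).mono_set (by
      rw [uIcc_of_le hr.1, uIcc_of_le hs.2.le]
      exact Icc_subset_Icc_right (hr.2.trans ht.2.le))
  have hsub : ∀ {f : ℝ → ℝ}, (∀ s ∈ Ioo (0 : ℝ) 1, IntervalIntegrable f volume s 1) →
      ∀ r ∈ Icc s t, ∀ c : ℝ, c - ∫ u in r..1, f u = (c - ∫ u in s..1, f u) + ∫ u in s..r, f u := by
    intro f hf r hr c
    have h1 := hii hf r hr
    have hr' : r ∈ Ioo (0 : ℝ) 1 := ⟨hs.1.trans_le hr.1, hr.2.trans_lt ht.2⟩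
    have h2 := intervalIntegral.integral_add_adjacent_intervals h1 (hf r hr')
    linarith
  have hq'i : ∀ r ∈ Icc s t, IntervalIntegrable q' volume s r := by
    intro r hr
    refine IntervalIntegrable.sub ?_ ?_
    · have e : (fun u => ∑ i ∈ I, ∑ j ∈ I, c i * c j * gG i j u)
          = ∑ i ∈ I, ∑ j ∈ I, fun u => c i * c j * gG i j u := by
        funext u; simp [Finset.sum_apply]
      rw [e]
      exact IntervalIntegrable.sum _ fun i _ => IntervalIntegrable.sum _ fun j _ =>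
        (hii (hGi i j) r hr).const_mul _
    · refine IntervalIntegrable.const_mul ?_ _
      have e : (fun u => ∑ i ∈ I, c i * ⟪a i u, v u⟫_ℝ)
          = ∑ i ∈ I, fun u => c i * ⟪a i u, v u⟫_ℝ := by
        funext u; simp [Finset.sum_apply]
      rw [e]
      exact IntervalIntegrable.sum _ fun i _ => (hii (hPi i) r hr).const_mul _
  have hprim : ∀ r ∈ Icc s t, Q (G r) (P r) L I c = Q (G s) (P s) L I c + ∫ u in s..r, q' u := by
    intro r hr
    have hr0 : r ∈ Ioc (0 : ℝ) 1 := ⟨hs.1.trans_le hr.1, hr.2.trans ht.2.le⟩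
    have hs0 : s ∈ Ioc (0 : ℝ) 1 := Ioo_subset_Ioc_self hs
    have e1 : ∀ i j, G r i j = G s i j + ∫ u in s..r, gG i j u := by
      intro i j
      rw [hG i j r hr0, hG i j s hs0]; exact hsub (hGi i j) r hr _
    have e2 : ∀ i, P r i = P s i + ∫ u in s..r, ⟪a i u, v u⟫_ℝ := by
      intro i
      rw [hP i r, hP i s]; exact hsub (hPi i) r hr _
    have e3 : ∫ u in s..r, q' u = ∑ i ∈ I, ∑ j ∈ I, c i * c j * (∫ u in s..r, gG i j u)
        - 2 * ∑ i ∈ I, c i * (∫ u in s..r, ⟪a i u, v u⟫_ℝ) := by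
      have i1 : ∀ i j, IntervalIntegrable (fun u => c i * c j * gG i j u) volume s r :=
        fun i j => (hii (hGi i j) r hr).const_mul _
      have i2 : ∀ i, IntervalIntegrable (fun u => c i * ⟪a i u, v u⟫_ℝ) volume s r :=
        fun i => (hii (hPi i) r hr).const_mul _
      have e5 : (fun u => ∑ i ∈ I, ∑ j ∈ I, c i * c j * gG i j u)
          = ∑ i ∈ I, ∑ j ∈ I, fun u => c i * c j * gG i j u := by
        funext u; simp [Finset.sum_apply]
      have e6 : (fun u => ∑ i ∈ I, c i * ⟪a i u, v u⟫_ℝ)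
          = ∑ i ∈ I, fun u => c i * ⟪a i u, v u⟫_ℝ := by
        funext u; simp [Finset.sum_apply]
      have i3 : ∀ i, IntervalIntegrable (fun u => ∑ j ∈ I, c i * c j * gG i j u) volume s r := by
        intro i
        have e7 : (fun u => ∑ j ∈ I, c i * c j * gG i j u)
            = ∑ j ∈ I, fun u => c i * c j * gG i j u := by
          funext u; simp [Finset.sum_apply]
        rw [e7]
        exact IntervalIntegrable.sum _ fun j _ => i1 i j
      rw [hq', intervalIntegral.integral_sub, intervalIntegral.integral_const_mul,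
        intervalIntegral.integral_finsetSum fun i _ => i3 i,
        intervalIntegral.integral_finsetSum fun i _ => i2 i]
      · congr 1
        · refine Finset.sum_congr rfl fun i _ => ?_
          rw [intervalIntegral.integral_finsetSum fun j _ => i1 i j]
          exact Finset.sum_congr rfl fun j _ => intervalIntegral.integral_const_mul _ _
        · congr 1
          exact Finset.sum_congr rfl fun i _ => intervalIntegral.integral_const_mul _ _
      · rw [e5]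
        exact IntervalIntegrable.sum _ fun i _ => IntervalIntegrable.sum _ fun j _ => i1 i j
      · refine IntervalIntegrable.const_mul ?_ _
        rw [e6]
        exact IntervalIntegrable.sum _ fun i _ => i2 i
    rw [e3]
    unfold Q
    simp_rw [e1, e2, mul_add, Finset.sum_add_distrib]
    ring
  have hnn : ∀ r ∈ Icc s t, 0 ≤ Q (G r) (P r) L I c := fun r hr =>
    Q_nonneg (hpsd r ⟨hs.1.trans_le hr.1, hr.2.trans_lt ht.2⟩) I c
  refine sqrt_lip (A := fun r => Q (G r) (P r) L I c) hst hnn (hq'i t (right_mem_Icc.2 hst)) hprim ?_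
  have hss : Ioo s t ⊆ Ioo 0 1 := Ioo_subset_Ioo hs.1.le ht.2.le
  filter_upwards [ae_restrict_of_ae_restrict_of_subset hss gram,
    ae_restrict_of_ae_restrict_of_subset hss pv, ae_restrict_of_ae_restrict_of_subset hss nv,
    ae_restrict_of_ae_restrict_of_subset hss der] with u h1 h2 h3 h4
  have hQ := Q_gram (fun i => g i u) (v u) h1 h2 h3 I c
  rw [hQ, Real.sqrt_sq (norm_nonneg _)]
  have e4 : q' u = 2 * ⟪∑ i ∈ I, c i • a i u, ∑ j ∈ I, c j • g j u - v u⟫_ℝ := by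
    have e5 : ⟪∑ i ∈ I, c i • a i u, ∑ j ∈ I, c j • g j u⟫_ℝ
        = ∑ i ∈ I, ∑ j ∈ I, c i * c j * ⟪a i u, g j u⟫_ℝ := by
      rw [sum_inner]
      refine Finset.sum_congr rfl fun i _ => ?_
      rw [inner_sum]
      refine Finset.sum_congr rfl fun j _ => ?_
      rw [real_inner_smul_left, real_inner_smul_right]; ring
    have e6 : ⟪∑ i ∈ I, c i • a i u, v u⟫_ℝ = ∑ i ∈ I, c i * ⟪a i u, v u⟫_ℝ := by
      rw [sum_inner]
      exact Finset.sum_congr rfl fun i _ => by rw [real_inner_smul_left]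
    have e7 : ∑ i ∈ I, ∑ j ∈ I, c i * c j * ⟪a j u, g i u⟫_ℝ
        = ∑ i ∈ I, ∑ j ∈ I, c i * c j * ⟪a i u, g j u⟫_ℝ := by
      rw [Finset.sum_comm]
      exact Finset.sum_congr rfl fun i _ => Finset.sum_congr rfl fun j _ => by ring
    rw [inner_sub_right, e5, e6, hq']
    simp only [h4, mul_add, Finset.sum_add_distrib]
    rw [e7]; ring
  have h5 : |q' u| ≤ 2 * (∑ i ∈ I, |c i| * ‖a i u‖) * ‖v u - ∑ i ∈ I, c i • g i u‖ := by
    rw [e4, abs_mul, abs_two, mul_assoc]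
    refine mul_le_mul_of_nonneg_left ?_ (by norm_num)
    refine (abs_real_inner_le_norm _ _).trans ?_
    rw [norm_sub_rev]
    refine mul_le_mul_of_nonneg_right ?_ (norm_nonneg _)
    refine (norm_sum_le _ _).trans (Finset.sum_le_sum fun i _ => ?_)
    rw [norm_smul, Real.norm_eq_abs]
  refine (ENNReal.ofReal_le_ofReal h5).trans_eq ?_
  rw [ENNReal.ofReal_mul (by positivity), ENNReal.ofReal_mul (by norm_num),
    ENNReal.ofReal_sum_of_nonneg fun i _ => by positivity, ENNReal.ofReal_ofNat]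
  congr 2
  refine Finset.sum_congr rfl fun i _ => ?_
  rw [ENNReal.ofReal_mul (abs_nonneg _), ofReal_norm]

end gram

end Vale.Agent.P233.H450
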