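import Mathlib.MeasureTheory.Integral.Bochner.Basic
import Mathlib.MeasureTheory.Integral.Bochner.Set
import Mathlib.Topology.MetricSpace.Lipschitz
import Mathlib.Analysis.SpecialFunctions.BinaryEntropy

/-! # C2, the abstract chain step

`w s t A` plays the role of `K_{s,t} 1_A` (the conditional probability of `X_t ∈ A` given `X_s`). -/

open MeasureTheory Filter Topology Set

namespace Vale.Agent.P233.H450

variable {M : Type*} [MeasurableSpace M]

/-- `E |1_A(X_s) - 1_B(X_t)| = ∫ |1_A - K_{s,t} 1_B| dμ_s`. -/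
noncomputable def dd (μ : ℝ → Measure M) (w : ℝ → ℝ → Set M → M → ℝ) (s t : ℝ) (A B : Set M) : ℝ :=
  ∫ x, |A.indicator (fun _ => (1 : ℝ)) x - w s t B x| ∂μ s

omit [MeasurableSpace M] in
theorem min_le_abs {A : Set M} {x : M} {v : ℝ} (h0 : 0 ≤ v) (h1 : v ≤ 1) :
    min v (1 - v) ≤ |A.indicator (fun _ => (1 : ℝ)) x - v| := by
  by_cases hx : x ∈ A
  · rw [indicator_of_mem hx, abs_of_nonneg (by linarith)]; exact min_le_right _ _
  · rw [indicator_of_notMem hx, zero_sub, abs_neg, abs_of_nonneg h0]; exact min_le_left _ _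

omit [MeasurableSpace M] in
theorem min_eq_abs {x : M} {v : M → ℝ} (h0 : 0 ≤ v x) (h1 : v x ≤ 1) :
    min (v x) (1 - v x) = |({y | 1 / 2 < v y} : Set M).indicator (fun _ => (1 : ℝ)) x - v x| := by
  by_cases hx : x ∈ ({y | 1 / 2 < v y} : Set M)
  · rw [indicator_of_mem hx, abs_of_nonneg (by linarith)]
    have : 1 / 2 < v x := hx
    exact min_eq_right (by linarith)
  · rw [indicator_of_notMem hx, zero_sub, abs_neg, abs_of_nonneg h0]
    have : v x ≤ 1 / 2 := not_lt.1 hx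
    exact min_eq_left (by linarith)

/-- telescoping of second differences along `r_j = t + j δ` -/
theorem sum_second_diff (e : ℝ → ℝ) (t δ : ℝ) (n : ℕ) :
    ∑ j ∈ Finset.range n, (e (t + j * δ + δ) + e (t + j * δ - δ) - 2 * e (t + j * δ))
      = (e (t + n * δ) - e (t + n * δ - δ)) - (e t - e (t - δ)) := by
  induction n with
  | zero => simp
  | succ n ih =>
    rw [Finset.sum_range_succ, ih]
    push_cast
    have h1 : t + (n + 1 : ℝ) * δ = t + n * δ + δ := by ring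
    rw [h1, add_sub_cancel_right]; ring

/-- **Chain step.** Second differences of a locally Lipschitz function `e` bound the one-step
indeterminacy; then the indeterminacy between any two times vanishes. -/
theorem chain {a b : ℝ} {μ : ℝ → Measure M} {w : ℝ → ℝ → Set M → M → ℝ} {R : Set (Set M)}
    {e : ℝ → ℝ} {C K' : ℝ} (hC : 0 ≤ C)
    (hw : ∀ s ∈ Ioo a b, ∀ t ∈ Ioo a b, ∀ A ∈ R, Integrable (w s t A) (μ s) ∧
      ∀ᵐ x ∂μ s, 0 ≤ w s t A x ∧ w s t A x ≤ 1)
    (hR : ∀ A ∈ R, MeasurableSet A ∧ ∀ t ∈ Ioo a b, μ t A < ⊤)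
    (htri : ∀ r ∈ Ioo a b, ∀ s ∈ Ioo a b, ∀ t ∈ Ioo a b, s ∈ uIcc r t →
      ∀ A ∈ R, ∀ B ∈ R, ∀ D ∈ R, dd μ w r t A D ≤ dd μ w r s A B + dd μ w s t B D)
    (hdiag : ∀ t ∈ Ioo a b, ∀ A ∈ R, w t t A =ᵐ[μ t] A.indicator fun _ => 1)
    (hstep : ∀ r δ, r ∈ Ioo a b → r + δ ∈ Ioo a b → r - δ ∈ Ioo a b → ∀ A ∈ R,
      ∃ B ∈ R, dd μ w (r + δ) r B A ≤ C * (e (r + δ) + e (r - δ) - 2 * e r + K' * δ ^ 2))
    (he : ∀ c d, a < c → d < b → ∃ L : ℝ, 0 ≤ L ∧ ∀ x ∈ Icc c d, ∀ y ∈ Icc c d,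
      |e x - e y| ≤ L * |x - y|) :
    ∀ s ∈ Ioo a b, ∀ t ∈ Ioo a b, ∀ A ∈ R, ∀ᵐ x ∂μ s, w s t A x = 0 ∨ w s t A x = 1 := by
  intro s hs t ht A hA
  -- a compact subinterval
  obtain ⟨c, hc1, hc2⟩ : ∃ c, a < c ∧ c < min s t := exists_between (lt_min hs.1 ht.1)
  obtain ⟨d, hd1, hd2⟩ : ∃ d, max s t < d ∧ d < b := exists_between (max_lt hs.2 ht.2)
  obtain ⟨L, hL0, hL⟩ := he c d hc1 hd2
  have hmin0 : ∀ᵐ x ∂μ s, 0 ≤ min (w s t A x) (1 - w s t A x) := by
    filter_upwards [(hw s hs t ht A hA).2] with x hx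
    exact le_min hx.1 (by linarith [hx.2])
  have hmini : Integrable (fun x => min (w s t A x) (1 - w s t A x)) (μ s) := by
    refine (hw s hs t ht A hA).1.mono ?_ ?_
    · exact (hw s hs t ht A hA).1.aestronglyMeasurable.inf
        (aestronglyMeasurable_const.sub (hw s hs t ht A hA).1.aestronglyMeasurable)
    · filter_upwards [(hw s hs t ht A hA).2, hmin0] with x hx hx0
      rw [Real.norm_eq_abs, abs_of_nonneg hx0, Real.norm_eq_abs, abs_of_nonneg hx.1]
      exact min_le_left _ _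
  have hle : ∀ B ∈ R, ∫ x, min (w s t A x) (1 - w s t A x) ∂μ s ≤ dd μ w s t B A := by
    intro B hB
    have hBi : Integrable (B.indicator fun _ => (1 : ℝ)) (μ s) :=
      (integrable_indicator_iff (hR B hB).1).2 (integrableOn_const ((hR B hB).2 s hs).ne)
    refine integral_mono_ae hmini ((hBi.sub (hw s hs t ht A hA).1).abs) ?_
    filter_upwards [(hw s hs t ht A hA).2] with x hx
    exact min_le_abs hx.1 hx.2
  -- the main estimate
  have key : ∀ n : ℕ, 0 < n → |(s - t) / n| < min (min s t - c) (d - max s t) →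
      ∫ x, min (w s t A x) (1 - w s t A x) ∂μ s
        ≤ C * (2 * L * |(s - t) / n| + K' * (n * ((s - t) / n) ^ 2)) := by
    intro n hn hsmall
    set δ := (s - t) / n with hδ
    have hn' : (0 : ℝ) < n := by exact_mod_cast hn
    have hnδ : t + n * δ = s := by rw [hδ]; field_simp; ring
    have hr : ∀ j : ℕ, j ≤ n → t + j * δ ∈ uIcc t s := by
      intro j hj
      have h01 : (0 : ℝ) ≤ j / n ∧ (j : ℝ) / n ≤ 1 :=
        ⟨by positivity, by rw [div_le_one hn']; exact_mod_cast hj⟩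
      have hjδ : (j : ℝ) * δ = (j / n) * (s - t) := by rw [hδ]; ring
      rw [mem_uIcc, hjδ]
      rcases le_total t s with h | h
      · left; constructor
        · nlinarith [mul_nonneg h01.1 (sub_nonneg.2 h)]
        · nlinarith [mul_nonneg (sub_nonneg.2 h01.2) (sub_nonneg.2 h)]
      · right; constructor
        · nlinarith [mul_nonneg (sub_nonneg.2 h01.2) (sub_nonneg.2 h)]
        · nlinarith [mul_nonneg h01.1 (sub_nonneg.2 h)]
    have hint : ∀ j : ℕ, j ≤ n → min s t ≤ t + j * δ ∧ t + j * δ ≤ max s t := by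
      intro j hj
      have := hr j hj
      rw [uIcc, mem_Icc, inf_comm, sup_comm] at this
      exact this
    have hab : ∀ j : ℕ, j ≤ n → t + j * δ ∈ Ioo a b := fun j hj =>
      ⟨lt_of_lt_of_le (hc1.trans hc2) (hint j hj).1, lt_of_le_of_lt (hint j hj).2 (hd1.trans hd2)⟩
    have hδ1 : |δ| < min s t - c := lt_of_lt_of_le hsmall (min_le_left _ _)
    have hδ2 : |δ| < d - max s t := lt_of_lt_of_le hsmall (min_le_right _ _)
    have hδa := abs_lt.1 hδ1
    have hδb := abs_lt.1 hδ2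
    have hcd : ∀ j : ℕ, j ≤ n → t + j * δ ∈ Icc c d ∧ t + j * δ - δ ∈ Icc c d ∧
        t + j * δ + δ ∈ Icc c d := by
      intro j hj
      have := hint j hj
      refine ⟨⟨?_, ?_⟩, ⟨?_, ?_⟩, ⟨?_, ?_⟩⟩ <;> linarith [hδa.1, hδa.2, hδb.1, hδb.2]
    have hIoo : ∀ x, x ∈ Icc c d → x ∈ Ioo a b := fun x hx =>
      ⟨lt_of_lt_of_le hc1 hx.1, lt_of_le_of_lt hx.2 hd2⟩
    -- induction along the chain
    have ind : ∀ j : ℕ, j ≤ n → ∃ B ∈ R, dd μ w (t + j * δ) t B A
        ≤ ∑ i ∈ Finset.range j, C * (e (t + i * δ + δ) + e (t + i * δ - δ)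
          - 2 * e (t + i * δ) + K' * δ ^ 2) := by
      intro j
      induction j with
      | zero =>
        intro _
        refine ⟨A, hA, ?_⟩
        simp only [Nat.cast_zero, zero_mul, add_zero, Finset.range_zero, Finset.sum_empty]
        have : dd μ w t t A A = 0 := by
          unfold dd
          rw [integral_congr_ae (g := fun _ => (0 : ℝ)) ?_]
          · simp
          · filter_upwards [hdiag t ht A hA] with x hx
            simp [hx]
        exact this.le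
      | succ j ih =>
        intro hj
        obtain ⟨B, hB, hBj⟩ := ih (by omega)
        have e1 : t + ((j + 1 : ℕ) : ℝ) * δ = t + j * δ + δ := by push_cast; ring
        obtain ⟨B', hB', hBj'⟩ := hstep (t + j * δ) δ (hab j (by omega))
          (hIoo _ (hcd j (by omega)).2.2) (hIoo _ (hcd j (by omega)).2.1) B hB
        refine ⟨B', hB', ?_⟩
        rw [Finset.sum_range_succ, e1]
        have hmem : t + j * δ ∈ uIcc (t + j * δ + δ) t := by
          rw [mem_uIcc]
          rcases le_total 0 δ with h | h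
          · right; constructor
            · nlinarith [mul_nonneg (Nat.cast_nonneg (α := ℝ) j) h]
            · linarith
          · left; constructor
            · linarith
            · nlinarith [mul_nonneg (Nat.cast_nonneg (α := ℝ) j) (neg_nonneg.2 h)]
        have := htri _ (hIoo _ (hcd j (by omega)).2.2) _ (hab j (by omega)) _ ht hmem
          B' hB' B hB A hA
        linarith
    obtain ⟨B, hB, hBn⟩ := ind n le_rfl
    rw [hnδ] at hBn
    refine (hle B hB).trans (hBn.trans ?_)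
    rw [← Finset.mul_sum, Finset.sum_add_distrib, sum_second_diff, Finset.sum_const,
      Finset.card_range, nsmul_eq_mul]
    refine mul_le_mul_of_nonneg_left ?_ hC
    have h1 := hL _ (hcd n le_rfl).1 _ (hcd n le_rfl).2.1
    have h2 := hL _ (hcd 0 (Nat.zero_le _)).1 _ (hcd 0 (Nat.zero_le _)).2.1
    simp only [Nat.cast_zero, zero_mul, add_zero] at h2
    rw [sub_sub_cancel] at h1 h2
    have h1' := (abs_le.1 h1)
    have h2' := (abs_le.1 h2)
    have : (n : ℝ) * (K' * δ ^ 2) = K' * (n * δ ^ 2) := by ring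
    rw [this]
    linarith [h1'.1, h1'.2, h2'.1, h2'.2]
  -- let `n → ∞`
  have hlim : Tendsto (fun n : ℕ => C * (2 * L * |(s - t) / n| + K' * (n * ((s - t) / n) ^ 2)))
      atTop (𝓝 0) := by
    have h1 : Tendsto (fun n : ℕ => (s - t) / (n : ℝ)) atTop (𝓝 0) :=
      tendsto_const_div_atTop_nhds_zero_nat _
    have h2 : Tendsto (fun n : ℕ => (s - t) ^ 2 / (n : ℝ)) atTop (𝓝 0) :=
      tendsto_const_div_atTop_nhds_zero_nat _
    have h3 : Tendsto (fun n : ℕ => C * (2 * L * |(s - t) / n| + K' * ((s - t) ^ 2 / n)))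
        atTop (𝓝 (C * (2 * L * |0| + K' * 0))) :=
      (((h1.abs).const_mul _).add (h2.const_mul _)).const_mul _
    simp only [abs_zero, mul_zero, add_zero] at h3
    refine h3.congr' ?_
    filter_upwards [eventually_gt_atTop 0] with n hn
    have hn' : (n : ℝ) ≠ 0 := by exact_mod_cast hn.ne'
    congr 3
    field_simp
  have hsm : ∀ᶠ n : ℕ in atTop, |(s - t) / n| < min (min s t - c) (d - max s t) := by
    have h1 : Tendsto (fun n : ℕ => |(s - t) / (n : ℝ)|) atTop (𝓝 0) := by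
      simpa using (tendsto_const_div_atTop_nhds_zero_nat (s - t)).abs
    exact h1.eventually_lt_const (lt_min (by linarith) (by linarith))
  have h0 : ∫ x, min (w s t A x) (1 - w s t A x) ∂μ s ≤ 0 :=
    ge_of_tendsto hlim (by
      filter_upwards [eventually_gt_atTop 0, hsm] with n hn hn'
      exact key n hn hn')
  have h00 : ∫ x, min (w s t A x) (1 - w s t A x) ∂μ s = 0 :=
    le_antisymm h0 (integral_nonneg_of_ae hmin0)
  rw [integral_eq_zero_iff_of_nonneg_ae hmin0 hmini] at h00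
  filter_upwards [h00] with x hx
  simp only [Pi.zero_apply] at hx
  rcases le_total (w s t A x) (1 - w s t A x) with h | h
  · left; rwa [min_eq_left h] at hx
  · right; rw [min_eq_right h] at hx; linarith


theorem min_le_binEntropy {v : ℝ} (h0 : 0 ≤ v) (h1 : v ≤ 1) :
    min v (1 - v) ≤ Real.binEntropy v := by
  have key : ∀ u : ℝ, 0 ≤ u → u ≤ 1 / 2 → u ≤ Real.binEntropy u := by
    intro u hu0 hu1
    rcases hu0.eq_or_lt with rfl | hu
    · simp
    rw [Real.binEntropy_eq_negMulLog_add_negMulLog_one_sub, Real.negMulLog, Real.negMulLog]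
    have ha : Real.log u ≤ Real.log (1 / 2) := Real.log_le_log hu hu1
    have hb : Real.log (1 - u) ≤ (1 - u) - 1 := Real.log_le_sub_one_of_pos (by linarith)
    have hc : Real.log (1 / 2) = -Real.log 2 := by rw [one_div, Real.log_inv]
    have hd : Real.log (1 / 2) ≤ 1 / 2 - 1 := Real.log_le_sub_one_of_pos (by norm_num)
    have h2 : -u * Real.log u ≥ u * Real.log 2 := by nlinarith
    have h3 : -(1 - u) * Real.log (1 - u) ≥ (1 - u) * u := by nlinarith
    nlinarith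
  rcases le_total v (1 / 2) with h | h
  · exact (min_le_left _ _).trans (key v h0 h)
  · rw [← Real.binEntropy_one_sub]
    exact (min_le_right _ _).trans (key (1 - v) (by linarith) (by linarith))

/-- **C2, abstract form.** `e` is the entropy of `ρ_s`, `eA`, `eB` are the entropies of the two
parts `ρ_s w`, `ρ_s (1 - w)` with `w = K_{s,r} 1_A` (normalised so that the identity holds); both
are `K'`-semiconvex. Then `K_{s,t} 1_A ∈ {0,1}` for all `s, t`. -/
theorem determinism {a b : ℝ} {μ : ℝ → Measure M} {w : ℝ → ℝ → Set M → M → ℝ} {R : Set (Set M)}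
    {e : ℝ → ℝ}
    (hw : ∀ s ∈ Ioo a b, ∀ t ∈ Ioo a b, ∀ A ∈ R, Integrable (w s t A) (μ s) ∧
      ∀ᵐ x ∂μ s, 0 ≤ w s t A x ∧ w s t A x ≤ 1)
    (hR : ∀ A ∈ R, MeasurableSet A ∧ ∀ t ∈ Ioo a b, μ t A < ⊤)
    (hRw : ∀ s ∈ Ioo a b, ∀ t ∈ Ioo a b, ∀ A ∈ R, {x | 1 / 2 < w s t A x} ∈ R)
    (htri : ∀ r ∈ Ioo a b, ∀ s ∈ Ioo a b, ∀ t ∈ Ioo a b, s ∈ uIcc r t →
      ∀ A ∈ R, ∀ B ∈ R, ∀ D ∈ R, dd μ w r t A D ≤ dd μ w r s A B + dd μ w s t B D)
    (hdiag : ∀ t ∈ Ioo a b, ∀ A ∈ R, w t t A =ᵐ[μ t] A.indicator fun _ => 1)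
    (hent : ∀ c d, a < c → d < b → ∃ K' : ℝ, ∀ r ∈ Icc c d, ∀ A ∈ R, ∃ (eA eB : ℝ → ℝ) (c₀ : ℝ),
      (∀ s ∈ Icc c d, Integrable (fun x => Real.binEntropy (w s r A x)) (μ s) ∧
        ∫ x, Real.binEntropy (w s r A x) ∂μ s = e s - eA s - eB s + c₀) ∧
      ∀ δ, r + δ ∈ Icc c d → r - δ ∈ Icc c d →
        -(K' * δ ^ 2) ≤ eA (r + δ) + eA (r - δ) - 2 * eA r ∧
        -(K' * δ ^ 2) ≤ eB (r + δ) + eB (r - δ) - 2 * eB r)
    (he : ∀ c d, a < c → d < b → ∃ L : ℝ, 0 ≤ L ∧ ∀ x ∈ Icc c d, ∀ y ∈ Icc c d,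
      |e x - e y| ≤ L * |x - y|) :
    ∀ s ∈ Ioo a b, ∀ t ∈ Ioo a b, ∀ A ∈ R, ∀ᵐ x ∂μ s, w s t A x = 0 ∨ w s t A x = 1 := by
  intro s hs t ht
  obtain ⟨c, hc1, hc2⟩ : ∃ c, a < c ∧ c < min s t := exists_between (lt_min hs.1 ht.1)
  obtain ⟨d, hd1, hd2⟩ : ∃ d, max s t < d ∧ d < b := exists_between (max_lt hs.2 ht.2)
  obtain ⟨K', hK'⟩ := hent c d hc1 hd2
  have hsub : ∀ x, x ∈ Ioo c d → x ∈ Ioo a b := fun x hx => ⟨hc1.trans hx.1, hx.2.trans hd2⟩
  refine chain (a := c) (b := d) (μ := μ) (w := w) (R := R) (e := e) (C := 1) (K' := 2 * K')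
    zero_le_one (fun s hs t ht A hA => hw s (hsub s hs) t (hsub t ht) A hA)
    (fun A hA => ⟨(hR A hA).1, fun t ht => (hR A hA).2 t (hsub t ht)⟩)
    (fun r hr s hs t ht hm => htri r (hsub r hr) s (hsub s hs) t (hsub t ht) hm)
    (fun t ht => hdiag t (hsub t ht)) ?_
    (fun c' d' hc' hd' => he c' d' (hc1.trans hc') (hd'.trans hd2))
    s ⟨hc2.trans_le (min_le_left _ _), (le_max_left _ _).trans_lt hd1⟩
    t ⟨hc2.trans_le (min_le_right _ _), (le_max_right _ _).trans_lt hd1⟩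
  intro r δ hr hr1 hr2 A hA
  have hIcc : ∀ x, x ∈ Ioo c d → x ∈ Icc c d := fun x hx => Ioo_subset_Icc_self hx
  obtain ⟨eA, eB, c₀, h1, h2⟩ := hK' r (hIcc r hr) A hA
  obtain ⟨h2a, h2b⟩ := h2 δ (hIcc _ hr1) (hIcc _ hr2)
  refine ⟨{x | 1 / 2 < w (r + δ) r A x}, hRw _ (hsub _ hr1) _ (hsub _ hr) A hA, ?_⟩
  have hb := (hw (r + δ) (hsub _ hr1) r (hsub _ hr) A hA).2
  have e1 : dd μ w (r + δ) r {x | 1 / 2 < w (r + δ) r A x} A
      = ∫ x, min (w (r + δ) r A x) (1 - w (r + δ) r A x) ∂μ (r + δ) := by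
    unfold dd
    refine integral_congr_ae ?_
    filter_upwards [hb] with x hx
    exact (min_eq_abs hx.1 hx.2).symm
  have hmi : Integrable (fun x => min (w (r + δ) r A x) (1 - w (r + δ) r A x)) (μ (r + δ)) := by
    have hi := (hw (r + δ) (hsub _ hr1) r (hsub _ hr) A hA).1
    refine hi.mono (hi.aestronglyMeasurable.inf
      (aestronglyMeasurable_const.sub hi.aestronglyMeasurable)) ?_
    filter_upwards [hb] with x hx
    rw [Real.norm_eq_abs, abs_of_nonneg (le_min hx.1 (by linarith [hx.2])), Real.norm_eq_abs,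
      abs_of_nonneg hx.1]
    exact min_le_left _ _
  have e2 : ∫ x, min (w (r + δ) r A x) (1 - w (r + δ) r A x) ∂μ (r + δ)
      ≤ ∫ x, Real.binEntropy (w (r + δ) r A x) ∂μ (r + δ) := by
    refine integral_mono_ae hmi (h1 _ (hIcc _ hr1)).1 ?_
    filter_upwards [hb] with x hx
    exact min_le_binEntropy hx.1 hx.2
  have e3 : 0 ≤ ∫ x, Real.binEntropy (w (r - δ) r A x) ∂μ (r - δ) := by
    refine integral_nonneg_of_ae ?_
    filter_upwards [(hw (r - δ) (hsub _ hr2) r (hsub _ hr) A hA).2] with x hx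
    exact Real.binEntropy_nonneg hx.1 hx.2
  have e4 : ∫ x, Real.binEntropy (w r r A x) ∂μ r = 0 := by
    rw [integral_congr_ae (g := fun _ => (0 : ℝ)) ?_]
    · simp
    · filter_upwards [hdiag r (hsub r hr) A hA] with x hx
      rw [hx]
      by_cases hxA : x ∈ A
      · simp [hxA]
      · simp [hxA]
  rw [e1]
  have f1 := (h1 _ (hIcc _ hr1)).2
  have f2 := (h1 _ (hIcc _ hr2)).2
  have f3 := (h1 _ (hIcc _ hr)).2
  rw [e4] at f3
  linarith

end Vale.Agent.P233.H450
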