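import Vale.Agent.P233.H254.FlowApi
import Vale.Agent.P233.H450.Avoid4

/-! # P233, E3 (avoidance): the Gram data along almost every curve of a flow -/

set_option linter.all false

open MeasureTheory Filter Topology Set
open scoped ENNReal NNReal InnerProductSpace

universe u

namespace Vale.Agent.P233.H450

variable {M : Type u} [MetricSpace M] [MeasurableSpace M] [BorelSpace M]
  [SecondCountableTopology M] {m : Measure M} {E : Type*} [NormedAddCommGroup E]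
  [InnerProductSpace ℝ E] {Gr : (M →ₘ[m] ℝ) → M → E} {HO : (M →ₘ[m] ℝ) → M → E →L[ℝ] E}
  {e : ℕ → M →ₘ[m] ℝ} {Gt : ℕ → ℕ → M → ℝ} {K N : ℝ} {p : M} {s₀ C₀ : ℝ} {Y : ℝ → M → M}

theorem e_W (hE : Stat (sob m) Gr HO e) (i : ℕ) : e i ∈ (sob m).W :=
  (hE.testI i).1.2.choose_spec.1.1

/-- the precise Gram matrix is the Gram matrix a.e. -/
theorem gt_ae (hE : Stat (sob m) Gr HO e)
    (hP : ∀ i j, Precise Gr HO ((sob m).Γ (e i) (e j)) (Gt i j)) :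
    ∀ᵐ y ∂m, ∀ i j, Gt i j y = ⟪Gr (e i) y, Gr (e j) y⟫_ℝ := by
  refine ae_all_iff.2 fun i => ae_all_iff.2 fun j => ?_
  filter_upwards [(hP i j).2.1, hE.grad.inner _ (e_W hE i) _ (e_W hE j)] with y h1 h2
  rw [h1, h2]

theorem gt_bound (hS : Std m K N) (hE : Stat (sob m) Gr HO e)
    (hP : ∀ i j, Precise Gr HO ((sob m).Γ (e i) (e j)) (Gt i j)) :
    ∃ Λ : ℕ → ℕ → ℝ, ∀ᵐ y ∂m, ∀ i j, |Gt i j y| ≤ Λ i j := by
  have hC := FA.gam hS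
  have hB := FA.bei hS
  have h1 : ∀ i j, ∃ Λ : ℝ, ∀ᵐ y ∂m, |(sob m).Γ (e i) (e j) y| ≤ Λ := fun i j =>
    mem_top_iff.1 (hC.Γ_mem hB (hE.testI i).1 (hE.testI j).1).2
  choose Λ hΛ using h1
  refine ⟨Λ, ae_all_iff.2 fun i => ae_all_iff.2 fun j => ?_⟩
  filter_upwards [(hP i j).2.1, hΛ i j] with y h1 h2
  rw [h1]; exact h2

/-- along the moving curves the velocity has norm `spd` -/
theorem vel_norm (hS : Std m K N) (hF : Flow Gr HO p s₀ C₀ Y) :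
    ∀ᵐ x ∂m, dist p x ^ 2 < 2 * C₀ * (1 + s₀) → ∀ᵐ t ∂(volume.restrict (Ioo (0 : ℝ) 1)),
      dist p (Y t x) ^ 2 < 2 * C₀ * (1 + s₀) ∧ ‖rdir Gr p s₀ C₀ (Y t x)‖ = 1 := by
  haveI := FA.sf hS
  filter_upwards [(FA.ns hF).ae' hF.unit, hF.rad] with x h1 h2 h3
  filter_upwards [h1, ae_restrict_mem measurableSet_Ioo] with t h4 h5
  have h6 : dist p (Y t x) ^ 2 < 2 * C₀ * (1 + s₀) := by
    refine lt_of_le_of_lt ?_ h3
    rw [h2 h3 t (Ioo_subset_Ioc_self h5)]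
    have h7 : (t + s₀) / (1 + s₀) ≤ 1 := by
      rw [div_le_one (by linarith [hF.hs₀])]; linarith [h5.2]
    have h8 : 0 ≤ (t + s₀) / (1 + s₀) := div_nonneg (by linarith [h5.1, hF.hs₀])
      (by linarith [hF.hs₀])
    have h9 : (t + s₀) / (1 + s₀) * dist p x ≤ dist p x := by
      nlinarith [dist_nonneg (x := p) (y := x)]
    exact pow_le_pow_left₀ (mul_nonneg h8 dist_nonneg) h9 2
  exact ⟨h6, h4 h6⟩

theorem cmb_eq {V : Type*} [AddCommGroup V] [Module ℝ V] (w : ℕ → V) (c : ℕ →₀ ℚ) :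
    cmb w c = ∑ i ∈ c.support, ((c i : ℚ) : ℝ) • w i := rfl

theorem cmr_eq {V : Type*} [AddCommGroup V] [Module ℝ V] (w : ℕ → V) (c : ℕ →₀ ℝ) :
    cmr w c = ∑ i ∈ c.support, c i • w i := rfl

theorem curve_gram (hS : Std m K N) (hE : Stat (sob m) Gr HO e)
    (hP : ∀ i j, Precise Gr HO ((sob m).Γ (e i) (e j)) (Gt i j))
    (hF : Flow Gr HO p s₀ C₀ Y) (hSV : StrongV Gr HO e Gt p s₀ C₀ Y) :
    ∀ᵐ x ∂m, dist p x ^ 2 < 2 * C₀ * (1 + s₀) →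
      (∀ᵐ t ∂(volume.restrict (Ioo (0 : ℝ) 1)), ∀ i,
        pw Gr HO p s₀ C₀ Y (e i) t x = ⟪Gr (e i) (Y t x), vel Gr p s₀ C₀ Y t x⟫_ℝ) ∧
      GramCurve (fun t i j => Gt i j (Y t x))
        (fun t i => pw Gr HO p s₀ C₀ Y (e i) t x) (spd p s₀ C₀ x ^ 2)
        (fun i r => ‖HO (e i) (Y r x) (vel Gr p s₀ C₀ Y r x)‖ₑ) := by
  haveI := FA.sf hS
  have hC := FA.gam hS
  have hB := FA.bei hS
  have hns := FA.ns hF
  have hΓW : ∀ i j, (sob m).Γ (e i) (e j) ∈ (sob m).W := fun i j =>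
    (hC.Γ_mem hB (hE.testI i).1 (hE.testI j).1).1
  have h1 : ∀ᵐ x ∂m, ∀ i j, ∀ t ∈ Ioc (0 : ℝ) 1, Gt i j (Y t x) = (sob m).Γ (e i) (e j) x
      - ∫ r in t..1, ⟪Gr ((sob m).Γ (e i) (e j)) (Y r x), vel Gr p s₀ C₀ Y r x⟫_ℝ :=
    ae_all_iff.2 fun i => ae_all_iff.2 fun j => (hP i j).2.2 p s₀ C₀ Y hF
  have h2 : ∀ᵐ x ∂m, ∀ i j, ACto (fun t => (sob m).Γ (e i) (e j) (Y t x))
      ((sob m).Γ (e i) (e j) x)
      fun t => ⟪Gr ((sob m).Γ (e i) (e j)) (Y t x), vel Gr p s₀ C₀ Y t x⟫_ℝ :=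
    ae_all_iff.2 fun i => ae_all_iff.2 fun j => hF.ac1 _ (hΓW i j)
  have h3 : ∀ᵐ x ∂m, ∀ i, ACto (fun t => ⟪Gr (e i) (Y t x), vel Gr p s₀ C₀ Y t x⟫_ℝ)
      ⟪Gr (e i) x, vel Gr p s₀ C₀ Y 1 x⟫_ℝ
      fun t => ⟪HO (e i) (Y t x) (vel Gr p s₀ C₀ Y t x), vel Gr p s₀ C₀ Y t x⟫_ℝ :=
    ae_all_iff.2 fun i => hF.ac2 _ (hE.testI i)
  have h4 := hns.ae' (gt_ae hE hP)
  have h5 : ∀ᵐ y ∂m, ∀ i j, Gr ((sob m).Γ (e i) (e j)) y
      = HO (e i) y (Gr (e j) y) + HO (e j) y (Gr (e i) y) :=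
    ae_all_iff.2 fun i => ae_all_iff.2 fun j => hE.hess.prod _ (hE.testI i).1 _ (hE.testI j).1
  have h6 : ∀ᵐ y ∂m, ∀ i, ∀ v w : E, ⟪HO (e i) y v, w⟫_ℝ = ⟪v, HO (e i) y w⟫_ℝ :=
    ae_all_iff.2 fun i => hE.hess.symm _ (hE.testI i).1
  filter_upwards [h1, h2, h3, h4, hns.ae' h5, hns.ae' h6, vel_norm hS hF, hSV]
    with x a1 a2 a3 a4 a5 a6 a7 a8 hx
  have hpv : ∀ᵐ t ∂(volume.restrict (Ioo (0 : ℝ) 1)), ∀ i,
        pw Gr HO p s₀ C₀ Y (e i) t x = ⟪Gr (e i) (Y t x), vel Gr p s₀ C₀ Y t x⟫_ℝ := by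
    refine ae_all_iff.2 fun i => ?_
    filter_upwards [(a3 i).2] with t ht
    exact ht.symm
  refine ⟨hpv, ?_⟩
  refine gramCurve_of (g := fun i t => Gr (e i) (Y t x))
    (a := fun i t => HO (e i) (Y t x) (vel Gr p s₀ C₀ Y t x)) (v := fun t => vel Gr p s₀ C₀ Y t x)
    (cG := fun i j => (sob m).Γ (e i) (e j) x)
    (gG := fun i j t => ⟪Gr ((sob m).Γ (e i) (e j)) (Y t x), vel Gr p s₀ C₀ Y t x⟫_ℝ)
    (cP := fun i => ⟪Gr (e i) x, vel Gr p s₀ C₀ Y 1 x⟫_ℝ)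
    (fun i j t ht => a1 i j t ht) (fun i j => (a2 i j).1) (fun i t => rfl) (fun i => (a3 i).1)
    a4 hpv ?_ ?_ ?_
  · filter_upwards [a7 hx] with t ht
    rw [real_inner_self_eq_norm_sq, vel, norm_smul, ht.2, mul_one, Real.norm_eq_abs, sq_abs]
  · filter_upwards [a5, a6] with t b5 b6 i j
    rw [b5 i j, inner_add_left, b6 i, b6 j, real_inner_comm, real_inner_comm (HO (e j) _ _)]
  · intro t ht ε hε
    obtain ⟨c, hc⟩ := a8 t ht ε hε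
    refine ⟨c.support, fun i => (c i : ℝ), ?_⟩
    refine lt_of_le_of_lt (le_of_eq ?_) hc
    simp only [cmb_eq, smul_eq_mul, Q, Finset.mul_sum]
    congr 2
    exact Finset.sum_congr rfl fun i _ => Finset.sum_congr rfl fun j _ => by ring

theorem curve_bound (hS : Std m K N) (hE : Stat (sob m) Gr HO e)
    (hP : ∀ i j, Precise Gr HO ((sob m).Γ (e i) (e j)) (Gt i j))
    (hF : Flow Gr HO p s₀ C₀ Y) (hSV : StrongV Gr HO e Gt p s₀ C₀ Y) :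
    ∃ (Λ : ℕ → ℕ → ℝ) (Λ' : ℕ → ℝ), ∀ᵐ x ∂m, dist p x ^ 2 < 2 * C₀ * (1 + s₀) →
      (∀ t ∈ Ioo (0 : ℝ) 1, ∀ i j, |Gt i j (Y t x)| ≤ Λ i j) ∧
      ∀ t ∈ Ioo (0 : ℝ) 1, ∀ i, |pw Gr HO p s₀ C₀ Y (e i) t x| ≤ Λ' i := by
  haveI := FA.sf hS
  have hns := FA.ns hF
  obtain ⟨Λ, hΛ⟩ := gt_bound hS hE hP
  refine ⟨Λ, fun i => √(Λ i i) * √(2 * C₀), ?_⟩
  filter_upwards [curve_gram hS hE hP hF hSV, hns.ae' hΛ, hns.ae' (gt_ae hE hP), vel_norm hS hF]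
    with x a1 a2 a3 a4 hx
  obtain ⟨b1, b2⟩ := a1 hx
  refine ⟨fun t ht i j => ?_, fun t ht i => ?_⟩
  · exact ae_le_cont (b2.contG i j).abs continuousOn_const (a2.mono fun t ht => ht i j) t ht
  · refine ae_le_cont (f := fun t => |pw Gr HO p s₀ C₀ Y (e i) t x|) (b2.contP i).abs
      (g := fun _ => √(Λ i i) * √(2 * C₀)) continuousOn_const ?_ t ht
    filter_upwards [a2, a3, a4 hx, b1] with t c2 c3 c4 c1
    rw [c1 i]
    refine (abs_real_inner_le_norm _ _).trans (mul_le_mul ?_ ?_ (norm_nonneg _) (Real.sqrt_nonneg _))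
    · refine Real.le_sqrt_of_sq_le ?_
      rw [← real_inner_self_eq_norm_sq, ← c3 i i]
      exact (le_abs_self _).trans (c2 i i)
    · rw [vel, norm_smul, c4.2, mul_one, Real.norm_eq_abs,
        abs_of_nonneg (FA.spd_nonneg hF.hs₀ x)]
      exact FA.spd_le hF.hs₀ hF.hC₀ x

theorem curve_rank (hS : Std m K N) (hE : Stat (sob m) Gr HO e)
    (hP : ∀ i j, Precise Gr HO ((sob m).Γ (e i) (e j)) (Gt i j))
    (hF : Flow Gr HO p s₀ C₀ Y) (hSV : StrongV Gr HO e Gt p s₀ C₀ Y) (hR : FinRank Gr e) :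
    ∃ N₀ : ℕ, ∀ᵐ x ∂m, dist p x ^ 2 < 2 * C₀ * (1 + s₀) →
      ∀ t ∈ Ioo (0 : ℝ) 1, ¬ RankGE (fun i j => Gt i j (Y t x)) (N₀ + 1) := by
  haveI := FA.sf hS
  have hns := FA.ns hF
  have hpos : 0 < 2 * C₀ * (1 + s₀) := by
    have := hF.hs₀; have := hF.hC₀; positivity
  obtain ⟨N₀, hN⟩ := hR p √(2 * C₀ * (1 + s₀))
  refine ⟨N₀, ?_⟩
  filter_upwards [curve_gram hS hE hP hF hSV, hns.ae' (gt_ae hE hP), vel_norm hS hF, hns.ae' hN]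
    with x a1 a3 a4 a5 hx
  obtain ⟨b1, b2⟩ := a1 hx
  rintro t ht ⟨s, hs, hdet⟩
  have h1 : (sub (fun i j => Gt i j (Y t x)) s).det = 0 := by
    refine ae_eq_cont (b2.cont_det s) (g := fun _ => (0 : ℝ)) continuousOn_const ?_ t ht
    filter_upwards [a3, a4 hx, a5] with t c3 c4 c5
    have h2 : dist p (Y t x) < √(2 * C₀ * (1 + s₀)) := by
      refine Real.lt_sqrt_of_sq_lt c4.1
    have h3 := c5 h2 s hs
    rw [← h3]
    congr 1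
    ext i j
    exact c3 i j
  exact hdet.ne' h1

end Vale.Agent.P233.H450
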